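import Crest.Agent.S0327.Open
import Crest.Agent.S0324.OfS0325

/-!
Row 211 / S0327: from a parallelogram-cylinder cover with small total area to both conclusions
of the statement (parallelogram bases, and bounded relatively open bases).
-/

set_option autoImplicit false
open MeasureTheory
open scoped ENNReal

namespace Crest.Agent.S0327

/-- A parallelogram is bounded. -/
lemma isBounded_parallelogram (c a b : E3) : Bornology.IsBounded
    {x : E3 | ∃ s ∈ Set.Icc (0 : ℝ) 1, ∃ t ∈ Set.Icc (0 : ℝ) 1, x = c + s • a + t • b} := by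
  refine (Metric.isBounded_iff_subset_closedBall (0 : E3)).mpr ⟨‖c‖ + ‖a‖ + ‖b‖, ?_⟩
  rintro _ ⟨s, hs, t, ht, rfl⟩
  rw [mem_closedBall_zero_iff]
  have h1 : ‖s • a‖ ≤ ‖a‖ := by
    rw [norm_smul, Real.norm_eq_abs, abs_of_nonneg hs.1]
    exact mul_le_of_le_one_left (norm_nonneg a) hs.2
  have h2 : ‖t • b‖ ≤ ‖b‖ := by
    rw [norm_smul, Real.norm_eq_abs, abs_of_nonneg ht.1]
    exact mul_le_of_le_one_left (norm_nonneg b) ht.2
  calc ‖c + s • a + t • b‖ ≤ ‖c + s • a‖ + ‖t • b‖ := norm_add_le _ _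
    _ ≤ ‖c‖ + ‖s • a‖ + ‖t • b‖ := by gcongr; exact norm_add_le _ _
    _ ≤ ‖c‖ + ‖a‖ + ‖b‖ := by gcongr

/-- A parallelogram has finite area. -/
lemma parallelogram_lt_top (c a b : E3) :
    μHE[2] {x : E3 | ∃ s ∈ Set.Icc (0 : ℝ) 1, ∃ t ∈ Set.Icc (0 : ℝ) 1, x = c + s • a + t • b} < ⊤ := by
  rw [area_parallelogram]
  exact ENNReal.ofReal_lt_top

/-- Final step: a cover by parallelogram cylinders of total area at most `κ (1/2 - γ)`, where
`κ` bounds all projection areas of `K` from below, gives both conclusions of the statement. -/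
theorem finish (K : Set E3) (hKb : Bornology.IsBounded K) (κ : ℝ) (hκ : 0 < κ)
    (hproj : ∀ v : E3, ‖v‖ = 1 →
      ENNReal.ofReal κ ≤ μHE[2] ((fun y => y - inner ℝ y v • v) '' K))
    (N : ℕ) (u c a b : Fin N → E3) (hu : ∀ i, ‖u i‖ = 1)
    (hperp : ∀ i, inner ℝ (c i) (u i) = 0 ∧ inner ℝ (a i) (u i) = 0 ∧ inner ℝ (b i) (u i) = 0)
    (hcov : K ⊆ ⋃ i, {x : E3 |
        ∃ s ∈ Set.Icc (0 : ℝ) 1, ∃ t ∈ Set.Icc (0 : ℝ) 1, ∃ τ : ℝ, x = c i + s • a i + t • b i + τ • u i})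
    (γ : ℝ) (hγ : 0 < γ)
    (hsum : (∑ i, (μHE[2] {x : E3 |
            ∃ s ∈ Set.Icc (0 : ℝ) 1, ∃ t ∈ Set.Icc (0 : ℝ) 1, x = c i + s • a i + t • b i}).toReal)
          ≤ κ * (1 / 2 - γ)) :
    (∃ (k : ℕ) (u c a b : Fin k → EuclideanSpace ℝ (Fin 3)),
      (∀ i, ‖u i‖ = 1) ∧
      (∀ i, inner ℝ (c i) (u i) = 0 ∧ inner ℝ (a i) (u i) = 0 ∧ inner ℝ (b i) (u i) = 0) ∧
      K ⊆ ⋃ i, {x : EuclideanSpace ℝ (Fin 3) |
        ∃ s ∈ Set.Icc (0 : ℝ) 1, ∃ t ∈ Set.Icc (0 : ℝ) 1, ∃ τ : ℝ, x = c i + s • a i + t • b i + τ • u i} ∧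
      (∃ δ : ℝ, 0 < δ ∧ ∀ v : EuclideanSpace ℝ (Fin 3), ‖v‖ = 1 →
        (∑ i, (μHE[2] {x : EuclideanSpace ℝ (Fin 3) |
            ∃ s ∈ Set.Icc (0 : ℝ) 1, ∃ t ∈ Set.Icc (0 : ℝ) 1, x = c i + s • a i + t • b i}).toReal) + δ ≤
          (μHE[2] ((fun y => y - inner ℝ y v • v) '' K)).toReal / 2) ∧
      ∑ i, (μHE[2] {x : EuclideanSpace ℝ (Fin 3) |
            ∃ s ∈ Set.Icc (0 : ℝ) 1, ∃ t ∈ Set.Icc (0 : ℝ) 1, x = c i + s • a i + t • b i}).toReal /
          (μHE[2] ((fun y => y - inner ℝ y (u i) • u i) '' K)).toReal < 1 / 2) ∧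
    (∃ (k : ℕ) (u : Fin k → EuclideanSpace ℝ (Fin 3)) (B : Fin k → Set (EuclideanSpace ℝ (Fin 3))),
      (∀ i, ‖u i‖ = 1) ∧
      (∀ i, Bornology.IsBounded (B i) ∧ ∃ O : Set (EuclideanSpace ℝ (Fin 3)), IsOpen O ∧
        B i = O ∩ {x | inner ℝ x (u i) = 0}) ∧
      K ⊆
        ⋃ i, {x : EuclideanSpace ℝ (Fin 3) | ∃ y ∈ B i, ∃ τ : ℝ, x = y + τ • u i} ∧
      (∃ δ : ℝ, 0 < δ ∧ ∀ v : EuclideanSpace ℝ (Fin 3), ‖v‖ = 1 →
        (∑ i, (μHE[2] (B i)).toReal) + δ ≤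
          (μHE[2] ((fun y => y - inner ℝ y v • v) '' K)).toReal / 2) ∧
      ∑ i, (μHE[2] (B i)).toReal /
          (μHE[2] ((fun y => y - inner ℝ y (u i) • u i) '' K)).toReal < 1 / 2) := by
  -- projection areas as real numbers
  have hprojR : ∀ v : E3, ‖v‖ = 1 →
      κ ≤ (μHE[2] ((fun y => y - inner ℝ y v • v) '' K)).toReal := by
    intro v hv
    have hfin := Crest.Agent.S0324.proj_image_lt_top v hv K hKb
    rw [← ENNReal.ofReal_le_iff_le_toReal hfin.ne]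
    exact hproj v hv
  -- generic ratio bound
  have hratio : ∀ (x : ℝ) (v : E3), 0 ≤ x → ‖v‖ = 1 →
      x / (μHE[2] ((fun y => y - inner ℝ y v • v) '' K)).toReal ≤ x / κ := by
    intro x v hx hv
    exact div_le_div_of_nonneg_left hx hκ (hprojR v hv)
  constructor
  · refine ⟨N, u, c, a, b, hu, hperp, hcov, ⟨κ * γ, by positivity, ?_⟩, ?_⟩
    · intro v hv
      have := hprojR v hv
      nlinarith
    · calc ∑ i, (μHE[2] {x : E3 |
              ∃ s ∈ Set.Icc (0 : ℝ) 1, ∃ t ∈ Set.Icc (0 : ℝ) 1, x = c i + s • a i + t • b i}).toReal /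
            (μHE[2] ((fun y => y - inner ℝ y (u i) • u i) '' K)).toReal
          ≤ ∑ i, (μHE[2] {x : E3 |
              ∃ s ∈ Set.Icc (0 : ℝ) 1, ∃ t ∈ Set.Icc (0 : ℝ) 1, x = c i + s • a i + t • b i}).toReal / κ :=
            Finset.sum_le_sum (fun i _ => hratio _ (u i) ENNReal.toReal_nonneg (hu i))
        _ = (∑ i, (μHE[2] {x : E3 |
              ∃ s ∈ Set.Icc (0 : ℝ) 1, ∃ t ∈ Set.Icc (0 : ℝ) 1, x = c i + s • a i + t • b i}).toReal) / κ := by
            rw [Finset.sum_div]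
        _ ≤ κ * (1 / 2 - γ) / κ := div_le_div_of_nonneg_right hsum hκ.le
        _ = 1 / 2 - γ := by field_simp
        _ < 1 / 2 := by linarith
  · -- relatively open enlargements
    set θ : ℝ := κ * γ / (2 * (N + 1)) with hθ
    have hθpos : 0 < θ := by positivity
    have hex : ∀ i : Fin N, ∃ B : Set E3, Bornology.IsBounded B ∧
        (∃ O : Set E3, IsOpen O ∧ B = O ∩ {x | inner ℝ x (u i) = 0}) ∧
        {x : E3 | ∃ s ∈ Set.Icc (0 : ℝ) 1, ∃ t ∈ Set.Icc (0 : ℝ) 1, x = c i + s • a i + t • b i} ⊆ B ∧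
        μHE[2] B ≤ μHE[2] {x : E3 |
          ∃ s ∈ Set.Icc (0 : ℝ) 1, ∃ t ∈ Set.Icc (0 : ℝ) 1, x = c i + s • a i + t • b i} +
            ENNReal.ofReal θ := by
      intro i
      apply exists_open_enlargement (u i) (hu i) _ (isBounded_parallelogram _ _ _) _ θ hθpos
      rintro _ ⟨s, hs, t, ht, rfl⟩
      obtain ⟨h1, h2, h3⟩ := hperp i
      rw [inner_add_left, inner_add_left, inner_smul_left, inner_smul_left, h1, h2, h3]
      simp
    choose B hBb hBo hBsub hBle using hex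
    have hBR : ∀ i, (μHE[2] (B i)).toReal ≤ (μHE[2] {x : E3 |
          ∃ s ∈ Set.Icc (0 : ℝ) 1, ∃ t ∈ Set.Icc (0 : ℝ) 1, x = c i + s • a i + t • b i}).toReal + θ := by
      intro i
      have hfin := parallelogram_lt_top (c i) (a i) (b i)
      have h1 := ENNReal.toReal_mono (ENNReal.add_lt_top.mpr ⟨hfin, ENNReal.ofReal_lt_top⟩).ne (hBle i)
      rwa [ENNReal.toReal_add hfin.ne ENNReal.ofReal_ne_top, ENNReal.toReal_ofReal hθpos.le] at h1
    have hBsum : ∑ i, (μHE[2] (B i)).toReal ≤ κ * (1 / 2 - γ / 2) := by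
      calc ∑ i, (μHE[2] (B i)).toReal
          ≤ ∑ i, ((μHE[2] {x : E3 |
              ∃ s ∈ Set.Icc (0 : ℝ) 1, ∃ t ∈ Set.Icc (0 : ℝ) 1, x = c i + s • a i + t • b i}).toReal + θ) :=
            Finset.sum_le_sum (fun i _ => hBR i)
        _ = (∑ i, (μHE[2] {x : E3 |
              ∃ s ∈ Set.Icc (0 : ℝ) 1, ∃ t ∈ Set.Icc (0 : ℝ) 1, x = c i + s • a i + t • b i}).toReal) + N * θ := by
            rw [Finset.sum_add_distrib]
            simp
        _ ≤ κ * (1 / 2 - γ) + κ * γ / 2 := by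
            have h2 : (N : ℝ) * θ ≤ κ * γ / 2 := by
              rw [hθ]
              have hN : (0 : ℝ) ≤ N := Nat.cast_nonneg N
              have hkg : 0 < κ * γ := by positivity
              rw [show (N : ℝ) * (κ * γ / (2 * (N + 1))) = (κ * γ / 2) * (N / (N + 1)) by
                field_simp]
              have : (N : ℝ) / (N + 1) ≤ 1 := by
                rw [div_le_one (by positivity)]
                linarith
              nlinarith
            linarith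
        _ = κ * (1 / 2 - γ / 2) := by ring
    refine ⟨N, u, B, hu, fun i => ⟨hBb i, hBo i⟩, ?_, ⟨κ * γ / 2, by positivity, ?_⟩, ?_⟩
    · intro x hx
      obtain ⟨i, hi⟩ := Set.mem_iUnion.mp (hcov hx)
      obtain ⟨s, hs, t, ht, τ, rfl⟩ := hi
      exact Set.mem_iUnion.mpr ⟨i, c i + s • a i + t • b i, hBsub i ⟨s, hs, t, ht, rfl⟩, τ, rfl⟩
    · intro v hv
      have := hprojR v hv
      nlinarith
    · calc ∑ i, (μHE[2] (B i)).toReal /
            (μHE[2] ((fun y => y - inner ℝ y (u i) • u i) '' K)).toReal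
          ≤ ∑ i, (μHE[2] (B i)).toReal / κ :=
            Finset.sum_le_sum (fun i _ => hratio _ (u i) ENNReal.toReal_nonneg (hu i))
        _ = (∑ i, (μHE[2] (B i)).toReal) / κ := by rw [Finset.sum_div]
        _ ≤ κ * (1 / 2 - γ / 2) / κ := div_le_div_of_nonneg_right hBsum hκ.le
        _ = 1 / 2 - γ / 2 := by field_simp
        _ < 1 / 2 := by linarith

end Crest.Agent.S0327
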