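import Crest.Agent.S0327.Open

/-!
Row 211 / S0327: subdivision of a triangle into parallelograms, scaling of `gramArea`,
projection of a similar copy.
-/

set_option autoImplicit false
open MeasureTheory
open scoped ENNReal

namespace Crest.Agent.S0327

lemma gramArea_smul_smul_abs (α β : ℝ) (x y : E3) :
    gramArea (α • x) (β • y) = |α| * |β| * gramArea x y := by
  unfold gramArea
  rw [norm_smul, norm_smul, inner_smul_left, inner_smul_right, Real.norm_eq_abs, Real.norm_eq_abs]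
  have h : (|α| * ‖x‖) ^ 2 * (|β| * ‖y‖) ^ 2 - ((starRingEnd ℝ) α * (β * inner ℝ x y)) ^ 2 =
      (|α| * |β|) ^ 2 * (‖x‖ ^ 2 * ‖y‖ ^ 2 - inner ℝ x y ^ 2) := by
    simp only [conj_trivial]
    have h1 : |α| ^ 2 = α ^ 2 := sq_abs α
    have h2 : |β| ^ 2 = β ^ 2 := sq_abs β
    calc (|α| * ‖x‖) ^ 2 * (|β| * ‖y‖) ^ 2 - (α * (β * inner ℝ x y)) ^ 2
        = |α| ^ 2 * |β| ^ 2 * (‖x‖ ^ 2 * ‖y‖ ^ 2) - α ^ 2 * β ^ 2 * inner ℝ x y ^ 2 := by ring
      _ = (|α| * |β|) ^ 2 * (‖x‖ ^ 2 * ‖y‖ ^ 2 - inner ℝ x y ^ 2) := by rw [h1, h2]; ring_nf; rw [h1, h2]; ring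
  rw [h, Real.sqrt_mul (sq_nonneg _), Real.sqrt_sq (by positivity)]

lemma gramArea_map (Q : E3 ≃ₗᵢ[ℝ] E3) (x y : E3) : gramArea (Q x) (Q y) = gramArea x y := by
  unfold gramArea
  rw [Q.norm_map, Q.norm_map, Q.inner_map_map]

lemma sum_fin_cast_succ (M : ℕ) : ∑ k : Fin M, ((k : ℝ) + 1) = (M : ℝ) * (M + 1) / 2 := by
  rw [Fin.sum_univ_eq_sum_range (fun k : ℕ => ((k : ℝ) + 1)) M]
  induction M with
  | zero => simp
  | succ n ih =>
    rw [Finset.sum_range_succ, ih]
    push_cast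
    ring

/-- Every point of a triangle lies in one of the `M` parallelograms of the staircase
subdivision. -/
lemma subdivide (p q r b : E3) (hb : b ∈ convexHull ℝ {p, q, r}) (M : ℕ) (hM : 0 < M) :
    ∃ k : Fin M, ∃ σ ∈ Set.Icc (0 : ℝ) 1, ∃ τ ∈ Set.Icc (0 : ℝ) 1,
      b = (p + ((k : ℝ) / M) • (q - p)) + σ • ((1 / (M : ℝ)) • (q - p)) +
        τ • ((((k : ℝ) + 1) / M) • (r - q)) := by
  obtain ⟨s, t, ht, hts, hs, rfl⟩ := (mem_convexHull_triple p q r b).mp hb
  have hMpos : (0 : ℝ) < M := Nat.cast_pos.mpr hM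
  have hs0 : 0 ≤ s := le_trans ht hts
  have hsM : 0 ≤ s * M := by positivity
  set k : ℕ := min ⌊s * M⌋₊ (M - 1) with hk
  have hkM : k < M := lt_of_le_of_lt (min_le_right _ _) (Nat.sub_lt hM Nat.one_pos)
  have hk1 : (k : ℝ) ≤ s * M := by
    have h1 : (k : ℝ) ≤ (⌊s * M⌋₊ : ℝ) := by exact_mod_cast min_le_left _ _
    exact h1.trans (Nat.floor_le hsM)
  have hk2 : s * M ≤ (k : ℝ) + 1 := by
    rcases le_total ⌊s * M⌋₊ (M - 1) with h | h
    · have : k = ⌊s * M⌋₊ := by rw [hk]; exact min_eq_left h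
      rw [this]
      exact (Nat.lt_floor_add_one _).le
    · have : k = M - 1 := by rw [hk]; exact min_eq_right h
      rw [this]
      have h1 : ((M - 1 : ℕ) : ℝ) + 1 = M := by
        have : M - 1 + 1 = M := Nat.sub_add_cancel hM
        exact_mod_cast this
      rw [h1]
      nlinarith
  refine ⟨⟨k, hkM⟩, s * M - k, ⟨by linarith, by linarith⟩, t * M / (k + 1), ⟨by positivity, ?_⟩, ?_⟩
  · rw [div_le_one (by positivity)]
    nlinarith
  · simp only [smul_smul]
    have e1 : (k : ℝ) / M + (s * M - k) * (1 / M) = s := by field_simp; ring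
    have e2 : t * M / (k + 1) * ((k + 1) / M) = t := by
      have : (k : ℝ) + 1 ≠ 0 := by positivity
      field_simp
    rw [e2]
    calc p + (s • (q - p) + t • (r - q))
        = p + ((k : ℝ) / M + (s * M - k) * (1 / M)) • (q - p) + t • (r - q) := by rw [e1]; abel
      _ = p + ((k : ℝ) / M) • (q - p) + ((s * M - k) * (1 / M)) • (q - p) + t • (r - q) := by
          rw [add_smul]; abel

/-- Projection of a similar copy of a set. -/
theorem proj_transfer (Q : E3 ≃ₗᵢ[ℝ] E3) (m : E3) (lam : ℝ) (hlam : 0 < lam) (S : Set E3) (v : E3) :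
    μHE[2] ((fun y : E3 => y - inner ℝ y v • v) '' ((fun z : E3 => m + lam • Q z) '' S)) =
      ENNReal.ofReal (lam ^ 2) *
        μHE[2] ((fun y : E3 => y - inner ℝ y (Q.symm v) • Q.symm v) '' S) := by
  have h : (fun y : E3 => y - inner ℝ y v • v) '' ((fun z : E3 => m + lam • Q z) '' S) =
      (fun z : E3 => (m - inner ℝ m v • v) + lam • Q z) ''
        ((fun y : E3 => y - inner ℝ y (Q.symm v) • Q.symm v) '' S) := by
    rw [Set.image_image, Set.image_image]
    apply Set.image_congr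
    intro z _
    have h1 : inner ℝ (Q z) v = inner ℝ z (Q.symm v) := Q.inner_map_eq_flip z v
    simp only [map_sub, map_smul, LinearIsometryEquiv.apply_symm_apply, inner_add_left,
      inner_smul_left, conj_trivial, h1]
    module
  rw [h, area_similarity Q _ lam hlam]

end Crest.Agent.S0327
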