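import Crest.Agent.S0327.Tetra
import Crest.Agent.S0327.Subdiv
import Crest.Agent.S0327.Finish

/-!
Row 211 / S0327: the statement of S0327 follows from the statement of S0325.
-/

set_option autoImplicit false
open MeasureTheory
open scoped ENNReal

namespace Crest.Agent.S0327

/-- base point of the `k`-th parallelogram of a transported triangle -/
noncomputable def cylC (Q : E3 ≃ₗᵢ[ℝ] E3) (m : E3) (lam : ℝ) (M : ℕ) (u p q : E3) (k : ℕ) : E3 :=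
  (m - inner ℝ m (Q u) • Q u) + lam • Q (p + ((k : ℝ) / M) • (q - p))

/-- first edge of the parallelograms of a transported triangle -/
noncomputable def cylA (Q : E3 ≃ₗᵢ[ℝ] E3) (lam : ℝ) (M : ℕ) (p q : E3) : E3 :=
  lam • Q ((1 / (M : ℝ)) • (q - p))

/-- second edge of the `k`-th parallelogram of a transported triangle -/
noncomputable def cylB (Q : E3 ≃ₗᵢ[ℝ] E3) (lam : ℝ) (M : ℕ) (q r : E3) (k : ℕ) : E3 :=
  lam • Q ((((k : ℝ) + 1) / M) • (r - q))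

lemma cyl_perp (Q : E3 ≃ₗᵢ[ℝ] E3) (m : E3) (lam : ℝ) (M : ℕ) (u p q r : E3) (k : ℕ)
    (hu : ‖u‖ = 1) (hp : inner ℝ p u = 0) (hq : inner ℝ q u = 0) (hr : inner ℝ r u = 0) :
    inner ℝ (cylC Q m lam M u p q k) (Q u) = 0 ∧ inner ℝ (cylA Q lam M p q) (Q u) = 0 ∧
      inner ℝ (cylB Q lam M q r k) (Q u) = 0 := by
  have hQu : inner ℝ (Q u) (Q u) = 1 := by
    rw [Q.inner_map_map, real_inner_self_eq_norm_sq, hu]; norm_num
  refine ⟨?_, ?_, ?_⟩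
  · unfold cylC
    rw [inner_add_left, inner_sub_left, inner_smul_left, inner_smul_left, hQu, Q.inner_map_map,
      inner_add_left, inner_smul_left, inner_sub_left, hp, hq]
    simp
  · unfold cylA
    rw [inner_smul_left, Q.inner_map_map, inner_smul_left, inner_sub_left, hp, hq]
    simp
  · unfold cylB
    rw [inner_smul_left, Q.inner_map_map, inner_smul_left, inner_sub_left, hq, hr]
    simp

lemma cyl_area (Q : E3 ≃ₗᵢ[ℝ] E3) (lam : ℝ) (hlam : 0 < lam) (M : ℕ) (hM : 0 < M) (p q r : E3)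
    (k : ℕ) :
    gramArea (cylA Q lam M p q) (cylB Q lam M q r k) =
      lam ^ 2 * (((k : ℝ) + 1) / (M : ℝ) ^ 2) * gramArea (q - p) (r - q) := by
  have hMpos : (0 : ℝ) < M := Nat.cast_pos.mpr hM
  unfold cylA cylB
  rw [gramArea_smul_smul_abs, gramArea_map, gramArea_smul_smul_abs, abs_of_pos hlam,
    abs_of_pos (by positivity), abs_of_pos (by positivity)]
  field_simp

lemma cyl_cover (Q : E3 ≃ₗᵢ[ℝ] E3) (m : E3) (lam : ℝ) (M : ℕ) (u p q r : E3) (k : ℕ)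
    (σ τ t : ℝ) :
    m + lam • Q ((p + ((k : ℝ) / M) • (q - p)) + σ • ((1 / (M : ℝ)) • (q - p)) +
        τ • ((((k : ℝ) + 1) / M) • (r - q)) + t • u) =
      cylC Q m lam M u p q k + σ • cylA Q lam M p q + τ • cylB Q lam M q r k +
        (inner ℝ m (Q u) + lam * t) • Q u := by
  unfold cylC cylA cylB
  simp only [map_add, map_smul, map_sub]
  module

lemma gramArea_tri (p q r : E3) : gramArea (q - p) (r - q) = gramArea (q - p) (r - p) := by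
  have := gramArea_sub_right (q - p) (r - p)
  rwa [show r - p - (q - p) = r - q by abel] at this

lemma triangle_toReal (p q r : E3) :
    (μHE[2] (convexHull ℝ ({p, q, r} : Set E3))).toReal = gramArea (q - p) (r - q) / 2 := by
  rw [area_triangle, gramArea_tri, ENNReal.toReal_ofReal (by have := gramArea_nonneg (q - p) (r - p); positivity)]

/-- Core of the reduction: from a triangle-cylinder cover of the standard tetrahedron with total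
area `≤ √2 (1/2 - γ₀)` to the conclusions of S0327 for an arbitrary regular tetrahedron. -/
theorem core
    (hmin : ∀ v : E3, ‖v‖ = 1 →
        ENNReal.ofReal (Real.sqrt 2) ≤ μHE[2] ((fun y => y - inner ℝ y v • v) '' convexHull ℝ
          {!₂[1, 0, 0], !₂[-1, 0, 0], !₂[0, 1, Real.sqrt 2], !₂[0, -1, Real.sqrt 2]}))
    (n : ℕ) (u p q r : Fin n → E3) (hu : ∀ i, ‖u i‖ = 1)
    (hperp : ∀ i, inner ℝ (p i) (u i) = 0 ∧ inner ℝ (q i) (u i) = 0 ∧ inner ℝ (r i) (u i) = 0)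
    (hsub : convexHull ℝ {!₂[1, 0, 0], !₂[-1, 0, 0], !₂[0, 1, Real.sqrt 2], !₂[0, -1, Real.sqrt 2]} ⊆
          ⋃ i, {x : E3 | ∃ b ∈ convexHull ℝ {p i, q i, r i}, ∃ t : ℝ, x = b + t • u i})
    (γ₀ : ℝ) (hγ₀ : 0 < γ₀)
    (hA : (∑ i, (μHE[2] (convexHull ℝ ({p i, q i, r i} : Set E3))).toReal) ≤
      Real.sqrt 2 * (1 / 2 - γ₀))
    (w : Fin 4 → EuclideanSpace ℝ (Fin 3)) (ℓ : ℝ) (hℓ : 0 < ℓ)
    (hw : ∀ i j, i ≠ j → dist (w i) (w j) = ℓ) :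
    (∃ (k : ℕ) (u c a b : Fin k → EuclideanSpace ℝ (Fin 3)),
      (∀ i, ‖u i‖ = 1) ∧
      (∀ i, inner ℝ (c i) (u i) = 0 ∧ inner ℝ (a i) (u i) = 0 ∧ inner ℝ (b i) (u i) = 0) ∧
      convexHull ℝ (Set.range w) ⊆ ⋃ i, {x : EuclideanSpace ℝ (Fin 3) |
        ∃ s ∈ Set.Icc (0 : ℝ) 1, ∃ t ∈ Set.Icc (0 : ℝ) 1, ∃ τ : ℝ, x = c i + s • a i + t • b i + τ • u i} ∧
      (∃ δ : ℝ, 0 < δ ∧ ∀ v : EuclideanSpace ℝ (Fin 3), ‖v‖ = 1 →
        (∑ i, (μHE[2] {x : EuclideanSpace ℝ (Fin 3) |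
            ∃ s ∈ Set.Icc (0 : ℝ) 1, ∃ t ∈ Set.Icc (0 : ℝ) 1, x = c i + s • a i + t • b i}).toReal) + δ ≤
          (μHE[2] ((fun y => y - inner ℝ y v • v) '' convexHull ℝ (Set.range w))).toReal / 2) ∧
      ∑ i, (μHE[2] {x : EuclideanSpace ℝ (Fin 3) |
            ∃ s ∈ Set.Icc (0 : ℝ) 1, ∃ t ∈ Set.Icc (0 : ℝ) 1, x = c i + s • a i + t • b i}).toReal /
          (μHE[2] ((fun y => y - inner ℝ y (u i) • u i) '' convexHull ℝ (Set.range w))).toReal < 1 / 2) ∧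
    (∃ (k : ℕ) (u : Fin k → EuclideanSpace ℝ (Fin 3)) (B : Fin k → Set (EuclideanSpace ℝ (Fin 3))),
      (∀ i, ‖u i‖ = 1) ∧
      (∀ i, Bornology.IsBounded (B i) ∧ ∃ O : Set (EuclideanSpace ℝ (Fin 3)), IsOpen O ∧
        B i = O ∩ {x | inner ℝ x (u i) = 0}) ∧
      convexHull ℝ (Set.range w) ⊆
        ⋃ i, {x : EuclideanSpace ℝ (Fin 3) | ∃ y ∈ B i, ∃ τ : ℝ, x = y + τ • u i} ∧
      (∃ δ : ℝ, 0 < δ ∧ ∀ v : EuclideanSpace ℝ (Fin 3), ‖v‖ = 1 →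
        (∑ i, (μHE[2] (B i)).toReal) + δ ≤
          (μHE[2] ((fun y => y - inner ℝ y v • v) '' convexHull ℝ (Set.range w))).toReal / 2) ∧
      ∑ i, (μHE[2] (B i)).toReal /
          (μHE[2] ((fun y => y - inner ℝ y (u i) • u i) '' convexHull ℝ (Set.range w))).toReal < 1 / 2) := by
  obtain ⟨Q, m, hK⟩ := exists_similarity w ℓ hℓ hw
  have hlam : 0 < ℓ / 2 := by positivity
  have hs2 : 0 < Real.sqrt 2 := Real.sqrt_pos.mpr (by norm_num)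
  -- number of slabs
  set M : ℕ := ⌈1 / γ₀⌉₊ + 1 with hMdef
  have hM : 0 < M := Nat.succ_pos _
  have hMpos : (0 : ℝ) < M := Nat.cast_pos.mpr hM
  have h1M : 1 / (M : ℝ) ≤ γ₀ := by
    have h1 : 1 / γ₀ ≤ (M : ℝ) := by
      have := Nat.le_ceil (1 / γ₀)
      rw [hMdef]
      push_cast
      linarith
    rw [div_le_iff₀ hMpos]
    rw [div_le_iff₀ hγ₀] at h1
    linarith
  let e : Fin n × Fin M ≃ Fin (n * M) := finProdFinEquiv
  have hKb : Bornology.IsBounded (convexHull ℝ (Set.range w)) := by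
    rw [isBounded_convexHull]
    exact (Set.finite_range w).isBounded
  refine finish (convexHull ℝ (Set.range w)) hKb ((ℓ / 2) ^ 2 * Real.sqrt 2) (by positivity) ?_
    (n * M)
    (fun j => Q (u (e.symm j).1))
    (fun j => cylC Q m (ℓ / 2) M (u (e.symm j).1) (p (e.symm j).1) (q (e.symm j).1) (e.symm j).2)
    (fun j => cylA Q (ℓ / 2) M (p (e.symm j).1) (q (e.symm j).1))
    (fun j => cylB Q (ℓ / 2) M (q (e.symm j).1) (r (e.symm j).1) (e.symm j).2)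
    ?_ ?_ ?_ (γ₀ / 2) (by positivity) ?_
  · -- projections
    intro v hv
    rw [hK, proj_transfer Q m (ℓ / 2) hlam, ENNReal.ofReal_mul (by positivity)]
    have hv' : ‖Q.symm v‖ = 1 := by rw [Q.symm.norm_map]; exact hv
    gcongr
    exact hmin (Q.symm v) hv'
  · intro j
    rw [Q.norm_map]
    exact hu _
  · intro j
    obtain ⟨h1, h2, h3⟩ := hperp (e.symm j).1
    exact cyl_perp Q m (ℓ / 2) M _ _ _ _ _ (hu _) h1 h2 h3
  · -- cover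
    intro x hx
    rw [hK] at hx
    obtain ⟨y, hy, rfl⟩ := hx
    obtain ⟨i, hi⟩ := Set.mem_iUnion.mp (hsub hy)
    obtain ⟨b, hb, t, rfl⟩ := hi
    obtain ⟨k, σ, hσ, τ, hτ, hbeq⟩ := subdivide (p i) (q i) (r i) b hb M hM
    subst hbeq
    refine Set.mem_iUnion.mpr ⟨e (i, k), σ, hσ, τ, hτ, inner ℝ m (Q (u i)) + ℓ / 2 * t, ?_⟩
    simp only [Equiv.symm_apply_apply]
    exact cyl_cover Q m (ℓ / 2) M (u i) (p i) (q i) (r i) k σ τ t
  · -- total area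
    have hterm : ∀ j : Fin (n * M),
        (μHE[2] {x : E3 | ∃ s ∈ Set.Icc (0 : ℝ) 1, ∃ t ∈ Set.Icc (0 : ℝ) 1,
          x = cylC Q m (ℓ / 2) M (u (e.symm j).1) (p (e.symm j).1) (q (e.symm j).1) (e.symm j).2 +
            s • cylA Q (ℓ / 2) M (p (e.symm j).1) (q (e.symm j).1) +
            t • cylB Q (ℓ / 2) M (q (e.symm j).1) (r (e.symm j).1) (e.symm j).2}).toReal =
        (fun x : Fin n × Fin M => (ℓ / 2) ^ 2 * ((((x.2 : ℕ) : ℝ) + 1) / (M : ℝ) ^ 2) *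
          gramArea (q x.1 - p x.1) (r x.1 - q x.1)) (e.symm j) := by
      intro j
      rw [area_parallelogram, ENNReal.toReal_ofReal (gramArea_nonneg _ _),
        cyl_area Q (ℓ / 2) hlam M hM]
    rw [Fintype.sum_equiv e.symm _ (fun x : Fin n × Fin M => (ℓ / 2) ^ 2 *
          ((((x.2 : ℕ) : ℝ) + 1) / (M : ℝ) ^ 2) * gramArea (q x.1 - p x.1) (r x.1 - q x.1))
        (fun j => hterm j), Fintype.sum_prod_type]
    have hinner : ∀ i : Fin n, ∑ k : Fin M, (ℓ / 2) ^ 2 * ((((k : ℕ) : ℝ) + 1) / (M : ℝ) ^ 2) *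
        gramArea (q i - p i) (r i - q i) =
        (ℓ / 2) ^ 2 * (1 + 1 / (M : ℝ)) *
          (μHE[2] (convexHull ℝ ({p i, q i, r i} : Set E3))).toReal := by
      intro i
      rw [triangle_toReal, ← Finset.sum_mul, ← Finset.mul_sum, ← Finset.sum_div, sum_fin_cast_succ]
      field_simp
    rw [Finset.sum_congr rfl (fun i _ => hinner i), ← Finset.mul_sum]
    have hA0 : 0 ≤ ∑ i, (μHE[2] (convexHull ℝ ({p i, q i, r i} : Set E3))).toReal :=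
      Finset.sum_nonneg (fun i _ => ENNReal.toReal_nonneg)
    have hx0 : 0 < 1 / (M : ℝ) := by positivity
    have hl2 : 0 < (ℓ / 2) ^ 2 := by positivity
    have step1 : (1 + 1 / (M : ℝ)) * ∑ i, (μHE[2] (convexHull ℝ ({p i, q i, r i} : Set E3))).toReal
        ≤ Real.sqrt 2 * (1 / 2 - γ₀ / 2) := by
      have h1 : (1 + 1 / (M : ℝ)) * ∑ i, (μHE[2] (convexHull ℝ ({p i, q i, r i} : Set E3))).toReal
          ≤ (1 + 1 / (M : ℝ)) * (Real.sqrt 2 * (1 / 2 - γ₀)) :=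
        mul_le_mul_of_nonneg_left hA (by positivity)
      have h2 : (1 + 1 / (M : ℝ)) * (1 / 2 - γ₀) ≤ 1 / 2 - γ₀ / 2 := by nlinarith
      calc (1 + 1 / (M : ℝ)) * ∑ i, (μHE[2] (convexHull ℝ ({p i, q i, r i} : Set E3))).toReal
          ≤ (1 + 1 / (M : ℝ)) * (Real.sqrt 2 * (1 / 2 - γ₀)) := h1
        _ = Real.sqrt 2 * ((1 + 1 / (M : ℝ)) * (1 / 2 - γ₀)) := by ring
        _ ≤ Real.sqrt 2 * (1 / 2 - γ₀ / 2) := mul_le_mul_of_nonneg_left h2 hs2.le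
    calc (ℓ / 2) ^ 2 * (1 + 1 / (M : ℝ)) *
          ∑ i, (μHE[2] (convexHull ℝ ({p i, q i, r i} : Set E3))).toReal
        = (ℓ / 2) ^ 2 * ((1 + 1 / (M : ℝ)) *
          ∑ i, (μHE[2] (convexHull ℝ ({p i, q i, r i} : Set E3))).toReal) := by ring
      _ ≤ (ℓ / 2) ^ 2 * (Real.sqrt 2 * (1 / 2 - γ₀ / 2)) := mul_le_mul_of_nonneg_left step1 hl2.le
      _ = (ℓ / 2) ^ 2 * Real.sqrt 2 * (1 / 2 - γ₀ / 2) := by ring

/-- S0327 from S0325. -/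
theorem s0327_of_s0325
    (h325 : ((∀ v : EuclideanSpace ℝ (Fin 3), ‖v‖ = 1 →
        ENNReal.ofReal (Real.sqrt 2) ≤ μHE[2] ((fun y => y - inner ℝ y v • v) '' convexHull ℝ {!₂[1, 0, 0], !₂[-1, 0, 0], !₂[0, 1, Real.sqrt 2], !₂[0, -1, Real.sqrt 2]})) ∧
      ∃ v : EuclideanSpace ℝ (Fin 3), ‖v‖ = 1 ∧
        μHE[2] ((fun y => y - inner ℝ y v • v) '' convexHull ℝ {!₂[1, 0, 0], !₂[-1, 0, 0], !₂[0, 1, Real.sqrt 2], !₂[0, -1, Real.sqrt 2]}) = ENNReal.ofReal (Real.sqrt 2)) ∧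
    ∀ ε : ℝ, 0 < ε → ε ≤ 1 / 2000 →
      ∃ (u p q r : Fin (2 * ⌈2 / ε ^ 2⌉₊) → EuclideanSpace ℝ (Fin 3)),
        (∀ i, ‖u i‖ = 1) ∧
        (∀ i, inner ℝ (p i) (u i) = 0 ∧ inner ℝ (q i) (u i) = 0 ∧ inner ℝ (r i) (u i) = 0) ∧
        convexHull ℝ {!₂[1, 0, 0], !₂[-1, 0, 0], !₂[0, 1, Real.sqrt 2], !₂[0, -1, Real.sqrt 2]} ⊆
          ⋃ i, {x : EuclideanSpace ℝ (Fin 3) | ∃ b ∈ convexHull ℝ {p i, q i, r i}, ∃ t : ℝ, x = b + t • u i} ∧
        abs ((∑ i, (μHE[2] (convexHull ℝ ({p i, q i, r i} : Set (EuclideanSpace ℝ (Fin 3))))).toReal) / Real.sqrt 2 -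
            (1 / 2 - 13 / 6000 * ε ^ 2)) ≤ 2 * ε ^ 4)
    (w : Fin 4 → EuclideanSpace ℝ (Fin 3)) (ℓ : ℝ) (hℓ : 0 < ℓ)
    (hw : ∀ i j, i ≠ j → dist (w i) (w j) = ℓ) :
    (∃ (k : ℕ) (u c a b : Fin k → EuclideanSpace ℝ (Fin 3)),
      (∀ i, ‖u i‖ = 1) ∧
      (∀ i, inner ℝ (c i) (u i) = 0 ∧ inner ℝ (a i) (u i) = 0 ∧ inner ℝ (b i) (u i) = 0) ∧
      convexHull ℝ (Set.range w) ⊆ ⋃ i, {x : EuclideanSpace ℝ (Fin 3) |
        ∃ s ∈ Set.Icc (0 : ℝ) 1, ∃ t ∈ Set.Icc (0 : ℝ) 1, ∃ τ : ℝ, x = c i + s • a i + t • b i + τ • u i} ∧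
      (∃ δ : ℝ, 0 < δ ∧ ∀ v : EuclideanSpace ℝ (Fin 3), ‖v‖ = 1 →
        (∑ i, (μHE[2] {x : EuclideanSpace ℝ (Fin 3) |
            ∃ s ∈ Set.Icc (0 : ℝ) 1, ∃ t ∈ Set.Icc (0 : ℝ) 1, x = c i + s • a i + t • b i}).toReal) + δ ≤
          (μHE[2] ((fun y => y - inner ℝ y v • v) '' convexHull ℝ (Set.range w))).toReal / 2) ∧
      ∑ i, (μHE[2] {x : EuclideanSpace ℝ (Fin 3) |
            ∃ s ∈ Set.Icc (0 : ℝ) 1, ∃ t ∈ Set.Icc (0 : ℝ) 1, x = c i + s • a i + t • b i}).toReal /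
          (μHE[2] ((fun y => y - inner ℝ y (u i) • u i) '' convexHull ℝ (Set.range w))).toReal < 1 / 2) ∧
    (∃ (k : ℕ) (u : Fin k → EuclideanSpace ℝ (Fin 3)) (B : Fin k → Set (EuclideanSpace ℝ (Fin 3))),
      (∀ i, ‖u i‖ = 1) ∧
      (∀ i, Bornology.IsBounded (B i) ∧ ∃ O : Set (EuclideanSpace ℝ (Fin 3)), IsOpen O ∧
        B i = O ∩ {x | inner ℝ x (u i) = 0}) ∧
      convexHull ℝ (Set.range w) ⊆
        ⋃ i, {x : EuclideanSpace ℝ (Fin 3) | ∃ y ∈ B i, ∃ τ : ℝ, x = y + τ • u i} ∧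
      (∃ δ : ℝ, 0 < δ ∧ ∀ v : EuclideanSpace ℝ (Fin 3), ‖v‖ = 1 →
        (∑ i, (μHE[2] (B i)).toReal) + δ ≤
          (μHE[2] ((fun y => y - inner ℝ y v • v) '' convexHull ℝ (Set.range w))).toReal / 2) ∧
      ∑ i, (μHE[2] (B i)).toReal /
          (μHE[2] ((fun y => y - inner ℝ y (u i) • u i) '' convexHull ℝ (Set.range w))).toReal < 1 / 2) := by
  obtain ⟨⟨hmin, -⟩, hcov⟩ := h325
  obtain ⟨u, p, q, r, hu, hperp, hsub, habs⟩ := hcov (1 / 2000) (by norm_num) le_rfl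
  have hs2 : 0 < Real.sqrt 2 := Real.sqrt_pos.mpr (by norm_num)
  have hA : (∑ i, (μHE[2] (convexHull ℝ ({p i, q i, r i} : Set E3))).toReal) ≤
      Real.sqrt 2 * (1 / 2 - (13 / 6000 * (1 / 2000) ^ 2 - 2 * (1 / 2000) ^ 4)) := by
    have h1 := (abs_le.mp habs).2
    have h2 : (∑ i, (μHE[2] (convexHull ℝ ({p i, q i, r i} : Set E3))).toReal) / Real.sqrt 2 ≤
        1 / 2 - 13 / 6000 * (1 / 2000) ^ 2 + 2 * (1 / 2000) ^ 4 := by linarith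
    rw [div_le_iff₀ hs2] at h2
    linarith
  exact core hmin _ u p q r hu hperp hsub _ (by norm_num) hA w ℓ hℓ hw

end Crest.Agent.S0327
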