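import Mathlib

set_option autoImplicit false
open MeasureTheory
open scoped ENNReal

namespace Crest.Agent.S0327

/-- Euclidean 3-space. -/
abbrev E3 := EuclideanSpace ℝ (Fin 3)
/-- Euclidean plane (parameter space). -/
abbrev E2 := EuclideanSpace ℝ (Fin 2)

/-- The area of the parallelogram spanned by `a` and `b`. -/
noncomputable def gramArea (a b : E3) : ℝ :=
  Real.sqrt (‖a‖ ^ 2 * ‖b‖ ^ 2 - (inner ℝ a b) ^ 2)

/-- The linear parametrisation `x ↦ x 0 • a + x 1 • b`. -/
noncomputable def paramMap (a b : E3) : E2 →ₗ[ℝ] E3 where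
  toFun x := x 0 • a + x 1 • b
  map_add' x y := by
    simp only [PiLp.add_apply, add_smul]
    abel
  map_smul' r x := by
    simp only [PiLp.smul_apply, smul_eq_mul, RingHom.id_apply, smul_add, mul_smul]

@[simp] lemma paramMap_apply (a b : E3) (x : E2) : paramMap a b x = x 0 • a + x 1 • b := rfl

lemma gramArea_nonneg (a b : E3) : 0 ≤ gramArea a b := Real.sqrt_nonneg _

lemma normDet_paramMap (a b : E3) : (paramMap a b).normDet = gramArea a b := by
  have h := LinearMap.normDet_sq_eq_det_gram (paramMap a b) (EuclideanSpace.basisFun (Fin 2) ℝ)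
  rw [Matrix.det_fin_two] at h
  simp only [Matrix.gram_apply, paramMap_apply, EuclideanSpace.basisFun_apply] at h
  simp at h
  have h2 : (paramMap a b).normDet ^ 2 = ‖a‖ ^ 2 * ‖b‖ ^ 2 - (inner ℝ a b) ^ 2 := by
    rw [h, real_inner_comm b a]
    ring
  unfold gramArea
  rw [← h2, Real.sqrt_sq (LinearMap.normDet_nonneg _)]

/-- Area formula for planar parametrised sets. -/
theorem area_param (a b c : E3) (S : Set E2) :
    μHE[2] ((fun x : E2 => c + (x 0 • a + x 1 • b)) '' S) =
      ENNReal.ofReal (gramArea a b) * volume S := by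
  have h1 : (fun x : E2 => c + (x 0 • a + x 1 • b)) '' S =
      (fun y : E3 => c + y) '' (paramMap a b '' S) := by
    rw [Set.image_image]
    rfl
  rw [h1, (isometry_add_left c).euclideanHausdorffMeasure_image]
  have h2 := LinearMap.euclideanHausdorffMeasure_image_eq_normDet_mul_volume (paramMap a b) S
  rw [finrank_euclideanSpace_fin, normDet_paramMap] at h2
  exact h2


/-- the unit square in parameter space -/
def sq : Set E2 := {x | x 0 ∈ Set.Icc (0:ℝ) 1 ∧ x 1 ∈ Set.Icc (0:ℝ) 1}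

/-- the standard triangle `0 ≤ x 1 ≤ x 0 ≤ 1` in parameter space -/
def tri2 : Set E2 := {x | 0 ≤ x 1 ∧ x 1 ≤ x 0 ∧ x 0 ≤ 1}

lemma volume_sq : volume sq = 1 := by
  have hmp := EuclideanSpace.volume_preserving_symm_measurableEquiv_toLp (Fin 2)
  have h1 : sq = (MeasurableEquiv.toLp 2 (Fin 2 → ℝ)).symm ⁻¹' Set.Icc (0 : Fin 2 → ℝ) 1 := by
    ext y
    simp only [sq, Set.mem_preimage, Set.mem_Icc, Pi.le_def, Fin.forall_fin_two]
    simp
    tauto
  rw [h1, hmp.measure_preimage_equiv, Real.volume_Icc_pi]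
  simp

/-- coordinate swap on the parameter plane -/
noncomputable def swapE2 : E2 ≃ₗᵢ[ℝ] E2 := LinearIsometryEquiv.piLpCongrLeft 2 ℝ ℝ (Equiv.swap 0 1)

lemma swapE2_apply_zero (x : E2) : swapE2 x 0 = x 1 := by
  simp [swapE2, LinearIsometryEquiv.piLpCongrLeft_apply]

lemma swapE2_apply_one (x : E2) : swapE2 x 1 = x 0 := by
  simp [swapE2, LinearIsometryEquiv.piLpCongrLeft_apply]

lemma measurableSet_tri2 : MeasurableSet tri2 := by
  have h : IsClosed tri2 := by
    have e : tri2 = {x : E2 | 0 ≤ x 1} ∩ ({x : E2 | x 1 ≤ x 0} ∩ {x : E2 | x 0 ≤ 1}) := by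
      ext x; simp [tri2]
    rw [e]
    refine IsClosed.inter ?_ (IsClosed.inter ?_ ?_)
    · exact isClosed_le continuous_const (by fun_prop)
    · exact isClosed_le (by fun_prop) (by fun_prop)
    · exact isClosed_le (by fun_prop) continuous_const
  exact h.measurableSet

lemma volume_diag : volume {x : E2 | x 0 = x 1} = 0 := by
  let f : E2 →ₗ[ℝ] ℝ := (EuclideanSpace.proj (0 : Fin 2) : E2 →L[ℝ] ℝ).toLinearMap -
    (EuclideanSpace.proj (1 : Fin 2) : E2 →L[ℝ] ℝ).toLinearMap
  have hs : (LinearMap.ker f : Set E2) = {x : E2 | x 0 = x 1} := by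
    ext x
    simp [f, sub_eq_zero]
  rw [← hs]
  apply Measure.addHaar_submodule
  intro htop
  have : (EuclideanSpace.single (0 : Fin 2) (1:ℝ)) ∈ LinearMap.ker f := by
    rw [htop]; trivial
  simp [f] at this

lemma volume_tri2 : volume tri2 = 1 / 2 := by
  have hpre : volume (swapE2 ⁻¹' tri2) = volume tri2 :=
    (LinearIsometryEquiv.measurePreserving swapE2).measure_preimage measurableSet_tri2.nullMeasurableSet
  have hun : tri2 ∪ swapE2 ⁻¹' tri2 = sq := by
    ext x
    simp only [tri2, sq, Set.mem_union, Set.mem_preimage, Set.mem_ofPred_eq, swapE2_apply_zero,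
      swapE2_apply_one, Set.mem_Icc]
    constructor
    · rintro (h | h) <;> refine ⟨⟨?_, ?_⟩, ⟨?_, ?_⟩⟩ <;> linarith
    · rintro ⟨⟨h1, h2⟩, ⟨h3, h4⟩⟩
      rcases le_total (x 1) (x 0) with h | h
      · left; exact ⟨h3, h, h2⟩
      · right; exact ⟨h1, h, h4⟩
  have hint : volume (tri2 ∩ swapE2 ⁻¹' tri2) = 0 := by
    apply measure_mono_null _ volume_diag
    intro x hx
    simp only [tri2, Set.mem_inter_iff, Set.mem_preimage, Set.mem_ofPred_eq, swapE2_apply_zero,
      swapE2_apply_one] at hx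
    simp only [Set.mem_ofPred_eq]
    linarith [hx.1.2.1, hx.2.2.1]
  have hmeas : MeasurableSet (swapE2 ⁻¹' tri2) :=
    measurableSet_tri2.preimage swapE2.continuous.measurable
  have h := measure_union_add_inter (μ := volume) tri2 hmeas
  rw [hun, hint, volume_sq, hpre, add_zero] at h
  have h2 : (2 : ℝ≥0∞) * volume tri2 = 1 := by rw [two_mul]; exact h.symm
  rw [ENNReal.eq_div_iff (by norm_num) (by norm_num)]
  exact h2



lemma parallelogram_eq_image (c a b : E3) :
    {x : E3 | ∃ s ∈ Set.Icc (0 : ℝ) 1, ∃ t ∈ Set.Icc (0 : ℝ) 1, x = c + s • a + t • b} =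
      (fun x : E2 => c + (x 0 • a + x 1 • b)) '' sq := by
  ext x
  simp only [Set.mem_ofPred_eq, Set.mem_image, sq]
  constructor
  · rintro ⟨s, hs, t, ht, rfl⟩
    refine ⟨!₂[s, t], ⟨by simpa using hs, by simpa using ht⟩, ?_⟩
    simp [add_assoc]
  · rintro ⟨y, ⟨h0, h1⟩, rfl⟩
    exact ⟨y 0, h0, y 1, h1, by rw [add_assoc]⟩

/-- area of a parallelogram -/
theorem area_parallelogram (c a b : E3) :
    μHE[2] {x : E3 | ∃ s ∈ Set.Icc (0 : ℝ) 1, ∃ t ∈ Set.Icc (0 : ℝ) 1, x = c + s • a + t • b} =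
      ENNReal.ofReal (gramArea a b) := by
  rw [parallelogram_eq_image, area_param, volume_sq, mul_one]

lemma mem_convexHull_triple (p q r x : E3) :
    x ∈ convexHull ℝ {p, q, r} ↔
      ∃ s t : ℝ, 0 ≤ t ∧ t ≤ s ∧ s ≤ 1 ∧ x = p + (s • (q - p) + t • (r - q)) := by
  rw [convexHull_insert (Set.insert_nonempty _ _), convexHull_pair, mem_convexJoin]
  constructor
  · rintro ⟨a, ha, y, hy, hx⟩
    rw [Set.mem_singleton_iff] at ha
    subst ha
    rw [segment_eq_image'] at hy hx
    obtain ⟨θ, hθ, rfl⟩ := hy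
    obtain ⟨φ, hφ, rfl⟩ := hx
    refine ⟨φ, φ * θ, mul_nonneg hφ.1 hθ.1, ?_, hφ.2, ?_⟩
    · calc φ * θ ≤ φ * 1 := mul_le_mul_of_nonneg_left hθ.2 hφ.1
        _ = φ := mul_one φ
    · simp only [smul_sub, smul_add, mul_smul]
      abel
  · rintro ⟨s, t, ht, hts, hs, rfl⟩
    refine ⟨p, rfl, ?_⟩
    rcases eq_or_lt_of_le (le_trans ht hts) with h0 | hpos
    · have ht0 : t = 0 := le_antisymm (h0 ▸ hts) ht
      refine ⟨q, left_mem_segment ℝ q r, ?_⟩
      rw [← h0, ht0]
      simp [left_mem_segment]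
    · refine ⟨q + (t / s) • (r - q), ?_, ?_⟩
      · rw [segment_eq_image']
        exact ⟨t / s, ⟨div_nonneg ht hpos.le, (div_le_one hpos).mpr hts⟩, rfl⟩
      · rw [segment_eq_image']
        refine ⟨s, ⟨hpos.le, hs⟩, ?_⟩
        simp only [smul_sub, smul_add, smul_smul]
        rw [mul_div_cancel₀ _ hpos.ne']
        abel

lemma triangle_eq_image (p q r : E3) :
    convexHull ℝ {p, q, r} = (fun x : E2 => p + (x 0 • (q - p) + x 1 • (r - q))) '' tri2 := by
  ext x
  rw [mem_convexHull_triple]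
  simp only [Set.mem_image, tri2, Set.mem_ofPred_eq]
  constructor
  · rintro ⟨s, t, ht, hts, hs, rfl⟩
    exact ⟨!₂[s, t], ⟨by simpa using ht, by simpa using hts, by simpa using hs⟩, by simp⟩
  · rintro ⟨y, ⟨h0, h1, h2⟩, rfl⟩
    exact ⟨y 0, y 1, h0, h1, h2, rfl⟩

lemma gramArea_sub_right (a b : E3) : gramArea a (b - a) = gramArea a b := by
  unfold gramArea
  congr 1
  rw [inner_sub_right, norm_sub_sq_real, real_inner_self_eq_norm_sq, real_inner_comm a b]
  ring

/-- area of a triangle -/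
theorem area_triangle (p q r : E3) :
    μHE[2] (convexHull ℝ {p, q, r}) = ENNReal.ofReal (gramArea (q - p) (r - p) / 2) := by
  rw [triangle_eq_image, area_param, volume_tri2]
  have h : gramArea (q - p) (r - q) = gramArea (q - p) (r - p) := by
    have := gramArea_sub_right (q - p) (r - p)
    rwa [show r - p - (q - p) = r - q by abel] at this
  rw [h, ENNReal.ofReal_div_of_pos (by norm_num), div_eq_mul_inv, one_mul]
  simp [div_eq_mul_inv]


end Crest.Agent.S0327
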