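import Crest.Agent.S0327.Area

/-!
Row 211 / S0327: scaling of `μHE[2]` under similarities and relatively open enlargements of
planar sets.
-/

set_option autoImplicit false
open MeasureTheory
open scoped ENNReal Pointwise

namespace Crest.Agent.S0327

/-- `μHE[2]` scales by `lam ^ 2` under the similarity `z ↦ c + lam • Q z`. -/
theorem area_similarity (Q : E3 ≃ₗᵢ[ℝ] E3) (c : E3) (lam : ℝ) (hlam : 0 < lam) (S : Set E3) :
    μHE[2] ((fun z : E3 => c + lam • Q z) '' S) = ENNReal.ofReal (lam ^ 2) * μHE[2] S := by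
  have h1 : (fun z : E3 => c + lam • Q z) '' S = (fun y : E3 => c + y) '' (lam • (Q '' S)) := by
    ext x
    constructor
    · rintro ⟨z, hz, rfl⟩
      exact ⟨lam • Q z, Set.smul_mem_smul_set ⟨z, hz, rfl⟩, rfl⟩
    · rintro ⟨y, hy, rfl⟩
      obtain ⟨y', ⟨z, hz, rfl⟩, rfl⟩ := hy
      exact ⟨z, hz, rfl⟩
  rw [h1, (isometry_add_left c).euclideanHausdorffMeasure_image,
    Measure.euclideanHausdorffMeasure_smul₀ 2 hlam.ne', Q.isometry.euclideanHausdorffMeasure_image]
  rw [ENNReal.smul_def, smul_eq_mul]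
  congr 1
  rw [ENNReal.ofReal_pow hlam.le]
  congr 1
  rw [Real.toNNReal_of_nonneg hlam.le]
  ext
  simp [abs_of_pos hlam]

/-- A bounded subset of the plane `u^⊥` can be enlarged to a bounded relatively open subset of
that plane with an arbitrarily small gain of area. -/
theorem exists_open_enlargement (u : E3) (hu : ‖u‖ = 1) (P : Set E3)
    (hb : Bornology.IsBounded P) (hP : ∀ x ∈ P, inner ℝ x u = 0) (θ : ℝ) (hθ : 0 < θ) :
    ∃ B : Set E3, Bornology.IsBounded B ∧
      (∃ O : Set E3, IsOpen O ∧ B = O ∩ {x | inner ℝ x u = 0}) ∧ P ⊆ B ∧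
      μHE[2] B ≤ μHE[2] P + ENNReal.ofReal θ := by
  have hu0 : u ≠ 0 := by
    intro h
    rw [h, norm_zero] at hu
    exact zero_ne_one hu
  set W : Submodule ℝ E3 := (ℝ ∙ u)ᗮ with hW
  have : Fact (Module.finrank ℝ E3 = 2 + 1) := ⟨by simp⟩
  have hfin : Module.finrank ℝ W = 2 :=
    Submodule.finrank_orthogonal_span_singleton (𝕜 := ℝ) (E := E3) (n := 2) hu0
  have hvol : (μHE[2] : Measure W) = volume := by
    have := InnerProductSpace.euclideanHausdorffMeasure_eq_volume (V := W)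
    rwa [hfin] at this
  have hiso : Isometry (Subtype.val : W → E3) := isometry_subtype_coe
  have hmemW : ∀ x : E3, x ∈ W ↔ inner ℝ x u = 0 := by
    intro x
    rw [hW, Submodule.mem_orthogonal_singleton_iff_inner_left]
  set t : Set W := Subtype.val ⁻¹' P with ht
  have hPt : P = Subtype.val '' t := by
    ext x
    constructor
    · intro hx
      exact ⟨⟨x, (hmemW x).mpr (hP x hx)⟩, hx, rfl⟩
    · rintro ⟨y, hy, rfl⟩
      exact hy
  obtain ⟨R, hR⟩ := hb.exists_norm_le
  have htb : Bornology.IsBounded t := by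
    refine (Metric.isBounded_iff_subset_closedBall (0 : W)).mpr ⟨R, ?_⟩
    intro y hy
    rw [mem_closedBall_zero_iff]
    exact hR y.1 hy
  have htfin : volume t ≠ ⊤ := htb.measure_lt_top.ne
  obtain ⟨U, hUt, hUo, hUlt⟩ := Set.exists_isOpen_lt_add t htfin
    (ENNReal.ofReal_pos.mpr hθ).ne'
  set U' : Set W := U ∩ Metric.ball (0 : W) (R + 1) with hU'
  have hU'o : IsOpen U' := hUo.inter Metric.isOpen_ball
  obtain ⟨O, hOo, hOU⟩ := isOpen_induced_iff.mp hU'o
  refine ⟨Subtype.val '' U', ?_, ⟨O, hOo, ?_⟩, ?_, ?_⟩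
  · refine (Metric.isBounded_iff_subset_closedBall (0 : E3)).mpr ⟨R + 1, ?_⟩
    rintro _ ⟨y, hy, rfl⟩
    rw [mem_closedBall_zero_iff]
    have := hy.2
    rw [mem_ball_zero_iff] at this
    exact this.le
  · ext x
    constructor
    · rintro ⟨y, hy, rfl⟩
      refine ⟨?_, (hmemW y.1).mp y.2⟩
      rw [← hOU] at hy
      exact hy
    · rintro ⟨hxO, hxu⟩
      refine ⟨⟨x, (hmemW x).mpr hxu⟩, ?_, rfl⟩
      rw [← hOU]
      exact hxO
  · rw [hPt]
    apply Set.image_mono
    intro y hy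
    refine ⟨hUt hy, ?_⟩
    rw [mem_ball_zero_iff]
    have : ‖y‖ ≤ R := hR y.1 hy
    linarith
  · rw [hiso.euclideanHausdorffMeasure_image, hvol]
    have h1 : volume U' ≤ volume U := measure_mono Set.inter_subset_left
    have h2 : μHE[2] P = volume t := by
      rw [hPt, hiso.euclideanHausdorffMeasure_image, hvol]
    rw [h2]
    exact h1.trans hUlt.le

end Crest.Agent.S0327
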