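import Crest.Agent.S0327.Area
import Crest.Agent.S0324.Area

/-!
# Row 211, work package F2 + F3 (helper72)

Cover-level refinement lemmas used for S0327:

* `pgram_cover_of_tri_cover`: a cover by triangular cylinders can be turned into a cover by
  parallelogram cylinders (`M` slabs per triangle) with total base area `(1 + 1/M)` times the
  original one;
* `open_cover_of_tri_cover`: a cover by triangular cylinders can be turned into a cover by cylinders
  with bounded relatively open bases, total base area increased by at most `η`.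

No nondegeneracy assumption on the triangles is needed.
-/

set_option autoImplicit false
open MeasureTheory
open scoped ENNReal

namespace Crest.Agent.S0327

/-- The (closed) parallelogram `c + [0,1] a + [0,1] b`. -/
def pgram (c a b : E3) : Set E3 :=
  {x : E3 | ∃ s ∈ Set.Icc (0 : ℝ) 1, ∃ t ∈ Set.Icc (0 : ℝ) 1, x = c + s • a + t • b}

lemma gramArea_smul_smul (α β : ℝ) (a b : E3) :
    gramArea (α • a) (β • b) = |α| * |β| * gramArea a b := by
  unfold gramArea
  rw [norm_smul, norm_smul, inner_smul_left, inner_smul_right]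
  simp only [Real.norm_eq_abs, RCLike.conj_to_real]
  have h : (|α| * ‖a‖) ^ 2 * (|β| * ‖b‖) ^ 2 - (α * (β * inner ℝ a b)) ^ 2 =
      (|α| * |β|) ^ 2 * (‖a‖ ^ 2 * ‖b‖ ^ 2 - (inner ℝ a b) ^ 2) := by
    have h1 : |α| ^ 2 = α ^ 2 := sq_abs α
    have h2 : |β| ^ 2 = β ^ 2 := sq_abs β
    have h3 : (|α| * |β|) ^ 2 = α ^ 2 * β ^ 2 := by rw [mul_pow, h1, h2]
    have h4 : (|α| * ‖a‖) ^ 2 = α ^ 2 * ‖a‖ ^ 2 := by rw [mul_pow, h1]
    have h5 : (|β| * ‖b‖) ^ 2 = β ^ 2 * ‖b‖ ^ 2 := by rw [mul_pow, h2]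
    rw [h3, h4, h5]
    ring
  rw [h, Real.sqrt_mul (sq_nonneg _), Real.sqrt_sq (by positivity)]

/-- corner of the `k`-th slab -/
noncomputable def slabC (p q : E3) (M k : ℕ) : E3 := p + ((k : ℝ) / M) • (q - p)
/-- first side of a slab -/
noncomputable def slabA (p q : E3) (M : ℕ) : E3 := (1 / (M : ℝ)) • (q - p)
/-- second side of the `k`-th slab -/
noncomputable def slabB (q r : E3) (M k : ℕ) : E3 := (((k : ℝ) + 1) / M) • (r - q)

lemma tri_subset_slabs (p q r : E3) (M : ℕ) (hM : 0 < M) :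
    convexHull ℝ {p, q, r} ⊆ ⋃ k : Fin M, pgram (slabC p q M k) (slabA p q M) (slabB q r M k) := by
  intro x hx
  rw [mem_convexHull_triple] at hx
  obtain ⟨s, t, ht, hts, hs, rfl⟩ := hx
  have hMpos : (0 : ℝ) < M := by exact_mod_cast hM
  have hs0 : 0 ≤ s := le_trans ht hts
  -- the slab index
  set k : ℕ := min (⌊(M : ℝ) * s⌋₊) (M - 1) with hk
  have hkM : k < M := by
    have : k ≤ M - 1 := min_le_right _ _
    omega
  have hk1 : (k : ℝ) ≤ M * s := by
    have h1 : (k : ℝ) ≤ (⌊(M : ℝ) * s⌋₊ : ℝ) := by exact_mod_cast min_le_left _ _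
    exact le_trans h1 (Nat.floor_le (by positivity))
  have hk2 : (M : ℝ) * s ≤ k + 1 := by
    rcases le_total (⌊(M : ℝ) * s⌋₊) (M - 1) with h | h
    · have : k = ⌊(M : ℝ) * s⌋₊ := min_eq_left h
      rw [this]
      exact (Nat.lt_floor_add_one _).le
    · have : k = M - 1 := min_eq_right h
      rw [this]
      have h3 : ((M - 1 : ℕ) : ℝ) + 1 = M := by
        have : M - 1 + 1 = M := by omega
        exact_mod_cast this
      rw [h3]
      calc (M : ℝ) * s ≤ M * 1 := mul_le_mul_of_nonneg_left hs hMpos.le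
        _ = M := mul_one _
  refine Set.mem_iUnion.2 ⟨⟨k, hkM⟩, ?_⟩
  have hk1pos : (0 : ℝ) < (k : ℝ) + 1 := by positivity
  refine ⟨M * s - k, ⟨by linarith, by linarith⟩, t * M / (k + 1), ⟨by positivity, ?_⟩, ?_⟩
  · rw [div_le_one hk1pos]
    calc t * M ≤ s * M := mul_le_mul_of_nonneg_right hts hMpos.le
      _ = M * s := mul_comm _ _
      _ ≤ k + 1 := hk2
  · simp only [slabC, slabA, slabB, smul_smul]
    have e1 : (M * s - (k : ℝ)) * (1 / (M : ℝ)) = s - (k : ℝ) / M := by
      field_simp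
    have e2 : t * (M : ℝ) / ((k : ℝ) + 1) * (((k : ℝ) + 1) / M) = t := by
      field_simp
    rw [e1, e2, sub_smul]
    abel

lemma pgram_slab_area (p q r : E3) (M k : ℕ) (hM : 0 < M) :
    (μHE[2] (pgram (slabC p q M k) (slabA p q M) (slabB q r M k))).toReal =
      ((k : ℝ) + 1) / (M : ℝ) ^ 2 * gramArea (q - p) (r - q) := by
  have hMpos : (0 : ℝ) < M := by exact_mod_cast hM
  unfold pgram
  rw [area_parallelogram, ENNReal.toReal_ofReal (gramArea_nonneg _ _)]
  unfold slabA slabB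
  rw [gramArea_smul_smul, abs_of_pos (by positivity), abs_of_pos (by positivity)]
  field_simp

lemma tri_area_toReal (p q r : E3) :
    (μHE[2] (convexHull ℝ {p, q, r})).toReal = gramArea (q - p) (r - q) / 2 := by
  rw [area_triangle, ENNReal.toReal_ofReal (by have := gramArea_nonneg (q - p) (r - p); positivity)]
  have h : gramArea (q - p) (r - q) = gramArea (q - p) (r - p) := by
    have := gramArea_sub_right (q - p) (r - p)
    rwa [show r - p - (q - p) = r - q by abel] at this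
  rw [h]

lemma sum_slab_area (p q r : E3) (M : ℕ) (hM : 0 < M) :
    ∑ k : Fin M, (μHE[2] (pgram (slabC p q M k) (slabA p q M) (slabB q r M k))).toReal =
      (1 + 1 / (M : ℝ)) * (μHE[2] (convexHull ℝ {p, q, r})).toReal := by
  have hMpos : (0 : ℝ) < M := by exact_mod_cast hM
  simp_rw [pgram_slab_area p q r M _ hM, tri_area_toReal]
  rw [← Finset.sum_mul, ← Finset.sum_div, Fin.sum_univ_eq_sum_range (fun k => ((k : ℝ) + 1)) M]
  have hsum : ∑ k ∈ Finset.range M, ((k : ℝ) + 1) = (M : ℝ) * (M + 1) / 2 := by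
    clear hM hMpos
    induction M with
    | zero => simp
    | succ n ih =>
      rw [Finset.sum_range_succ, ih]
      push_cast
      ring
  rw [hsum]
  field_simp

lemma slab_perp (p q r u : E3) (hp : inner ℝ p u = 0) (hq : inner ℝ q u = 0)
    (hr : inner ℝ r u = 0) (M k : ℕ) :
    inner ℝ (slabC p q M k) u = 0 ∧ inner ℝ (slabA p q M) u = 0 ∧ inner ℝ (slabB q r M k) u = 0 := by
  refine ⟨?_, ?_, ?_⟩
  · simp [slabC, inner_add_left, inner_smul_left, inner_sub_left, hp, hq]
  · simp [slabA, inner_smul_left, inner_sub_left, hp, hq]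
  · simp [slabB, inner_smul_left, inner_sub_left, hq, hr]

/-- **F2.** A cover by triangular cylinders yields a cover by parallelogram cylinders with
`M` parallelograms per triangle and total base area `(1 + 1/M)` times the original. -/
theorem pgram_cover_of_tri_cover (S : Set E3) (m : ℕ) (u p q r : Fin m → E3)
    (hperp : ∀ i, inner ℝ (p i) (u i) = 0 ∧ inner ℝ (q i) (u i) = 0 ∧ inner ℝ (r i) (u i) = 0)
    (hcov : S ⊆ ⋃ i, {x : E3 | ∃ y ∈ convexHull ℝ {p i, q i, r i}, ∃ τ : ℝ, x = y + τ • u i})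
    (M : ℕ) (hM : 0 < M) :
    ∃ (f : Fin (m * M) → Fin m) (c a b : Fin (m * M) → E3),
      (∀ j, inner ℝ (c j) (u (f j)) = 0 ∧ inner ℝ (a j) (u (f j)) = 0 ∧
        inner ℝ (b j) (u (f j)) = 0) ∧
      S ⊆ ⋃ j, {x : E3 | ∃ s ∈ Set.Icc (0 : ℝ) 1, ∃ t ∈ Set.Icc (0 : ℝ) 1, ∃ τ : ℝ,
        x = c j + s • a j + t • b j + τ • u (f j)} ∧
      ∑ j, (μHE[2] {x : E3 | ∃ s ∈ Set.Icc (0 : ℝ) 1, ∃ t ∈ Set.Icc (0 : ℝ) 1,
          x = c j + s • a j + t • b j}).toReal =
        (1 + 1 / (M : ℝ)) * ∑ i, (μHE[2] (convexHull ℝ {p i, q i, r i})).toReal := by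
  classical
  let e : Fin m × Fin M ≃ Fin (m * M) := finProdFinEquiv
  refine ⟨fun j => (e.symm j).1,
    fun j => slabC (p (e.symm j).1) (q (e.symm j).1) M (e.symm j).2,
    fun j => slabA (p (e.symm j).1) (q (e.symm j).1) M,
    fun j => slabB (q (e.symm j).1) (r (e.symm j).1) M (e.symm j).2, ?_, ?_, ?_⟩
  · intro j
    exact slab_perp _ _ _ _ (hperp _).1 (hperp _).2.1 (hperp _).2.2 M _
  · intro x hx
    obtain ⟨i, y, hy, τ, rfl⟩ := Set.mem_iUnion.1 (hcov hx)
    obtain ⟨k, s, hs, t, ht, rfl⟩ := Set.mem_iUnion.1 (tri_subset_slabs _ _ _ M hM hy)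
    refine Set.mem_iUnion.2 ⟨e (i, k), s, hs, t, ht, τ, ?_⟩
    simp only [Equiv.symm_apply_apply]
  · rw [Finset.mul_sum]
    rw [← Equiv.sum_comp e, Fintype.sum_prod_type]
    refine Finset.sum_congr rfl fun i _ => ?_
    simp only [Equiv.symm_apply_apply]
    exact sum_slab_area (p i) (q i) (r i) M hM

/-- A closed bounded subset of the plane `u^⊥` can be enlarged to a bounded relatively open subset
of `u^⊥` with arbitrarily small increase in area. -/
theorem exists_open_base (u : E3) (hu : u ≠ 0) (P : Set E3) (hPc : IsClosed P)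
    (hPb : Bornology.IsBounded P) (hPu : ∀ x ∈ P, inner ℝ x u = 0) (η : ℝ) (hη : 0 < η) :
    ∃ O : Set E3, IsOpen O ∧ Bornology.IsBounded (O ∩ {x | inner ℝ x u = 0}) ∧
      P ⊆ O ∩ {x | inner ℝ x u = 0} ∧
      (μHE[2] (O ∩ {x | inner ℝ x u = 0})).toReal ≤ (μHE[2] P).toReal + η := by
  set H : Set E3 := {x | inner ℝ x u = 0} with hH
  have hHc : IsClosed H := isClosed_eq (by fun_prop) continuous_const
  have hHm : MeasurableSet H := hHc.measurableSet
  set μ : Measure E3 := (μHE[2] : Measure E3).restrict H with hμ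
  have hfin : ∀ R : ℝ, μHE[2] (Metric.thickening R P ∩ H) < ⊤ := by
    intro R
    refine Crest.Agent.S0324.planar_lt_top u hu _ ?_ ?_
    · exact (hPb.thickening (δ := R)).subset Set.inter_subset_left
    · intro x hx
      exact hx.2
  have hμapp : ∀ R : ℝ, μ (Metric.thickening R P) = μHE[2] (Metric.thickening R P ∩ H) := by
    intro R
    rw [hμ, Measure.restrict_apply Metric.isOpen_thickening.measurableSet]
  have hμP : μ P = μHE[2] P := by
    rw [hμ, Measure.restrict_apply hPc.measurableSet]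
    congr 1
    exact Set.inter_eq_left.2 hPu
  have hPfin : μHE[2] P < ⊤ := Crest.Agent.S0324.planar_lt_top u hu P hPb hPu
  have htend := tendsto_measure_thickening_of_isClosed (μ := μ) (s := P)
    ⟨1, one_pos, by rw [hμapp]; exact (hfin 1).ne⟩ hPc
  have hlt : μ P < μ P + ENNReal.ofReal η := by
    rw [hμP]
    exact ENNReal.lt_add_right hPfin.ne (by simpa using hη)
  have hev := (tendsto_order.1 htend).2 _ hlt
  obtain ⟨ρ, hρ, hρpos⟩ := (hev.and self_mem_nhdsWithin).exists
  have hρpos' : 0 < ρ := hρpos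
  refine ⟨Metric.thickening ρ P, Metric.isOpen_thickening, ?_, ?_, ?_⟩
  · exact (hPb.thickening (δ := ρ)).subset Set.inter_subset_left
  · intro x hx
    exact ⟨Metric.self_subset_thickening hρpos' P hx, hPu x hx⟩
  · rw [hμapp, hμP] at hρ
    have h1 : (μHE[2] (Metric.thickening ρ P ∩ H)).toReal ≤
        (μHE[2] P + ENNReal.ofReal η).toReal :=
      ENNReal.toReal_mono (ENNReal.add_ne_top.2 ⟨hPfin.ne, ENNReal.ofReal_ne_top⟩) hρ.le
    rwa [ENNReal.toReal_add hPfin.ne ENNReal.ofReal_ne_top, ENNReal.toReal_ofReal hη.le] at h1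

lemma tri_subset_plane (p q r u : E3) (hp : inner ℝ p u = 0) (hq : inner ℝ q u = 0)
    (hr : inner ℝ r u = 0) : ∀ x ∈ convexHull ℝ {p, q, r}, inner ℝ x u = 0 := by
  intro x hx
  have hconv : Convex ℝ {x : E3 | inner ℝ x u = 0} := by
    intro a ha b hb s t _ _ _
    simp only [Set.mem_ofPred_eq] at ha hb ⊢
    rw [inner_add_left, inner_smul_left, inner_smul_left, ha, hb]
    simp
  have hsub : ({p, q, r} : Set E3) ⊆ {x : E3 | inner ℝ x u = 0} := by
    intro y hy
    rcases hy with rfl | rfl | rfl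
    · exact hp
    · exact hq
    · exact hr
  exact convexHull_min hsub hconv hx

/-- **F3.** A cover by triangular cylinders yields a cover by cylinders with bounded relatively
open bases, total base area increased by at most `η`. -/
theorem open_cover_of_tri_cover (S : Set E3) (m : ℕ) (u p q r : Fin m → E3)
    (hu : ∀ i, ‖u i‖ = 1)
    (hperp : ∀ i, inner ℝ (p i) (u i) = 0 ∧ inner ℝ (q i) (u i) = 0 ∧ inner ℝ (r i) (u i) = 0)
    (hcov : S ⊆ ⋃ i, {x : E3 | ∃ y ∈ convexHull ℝ {p i, q i, r i}, ∃ τ : ℝ, x = y + τ • u i})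
    (η : ℝ) (hη : 0 < η) :
    ∃ B : Fin m → Set E3,
      (∀ i, Bornology.IsBounded (B i) ∧ ∃ O : Set E3, IsOpen O ∧
        B i = O ∩ {x | inner ℝ x (u i) = 0}) ∧
      S ⊆ ⋃ i, {x : E3 | ∃ y ∈ B i, ∃ τ : ℝ, x = y + τ • u i} ∧
      ∑ i, (μHE[2] (B i)).toReal ≤ ∑ i, (μHE[2] (convexHull ℝ {p i, q i, r i})).toReal + η := by
  classical
  rcases Nat.eq_zero_or_pos m with hm | hm
  · subst hm
    refine ⟨fun i => i.elim0, fun i => i.elim0, ?_, ?_⟩
    · intro x hx
      obtain ⟨i, -⟩ := Set.mem_iUnion.1 (hcov hx)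
      exact i.elim0
    · simp [hη.le]
  have hmpos : (0 : ℝ) < m := by exact_mod_cast hm
  have hex : ∀ i : Fin m, ∃ O : Set E3, IsOpen O ∧
      Bornology.IsBounded (O ∩ {x | inner ℝ x (u i) = 0}) ∧
      convexHull ℝ {p i, q i, r i} ⊆ O ∩ {x | inner ℝ x (u i) = 0} ∧
      (μHE[2] (O ∩ {x | inner ℝ x (u i) = 0})).toReal ≤
        (μHE[2] (convexHull ℝ {p i, q i, r i})).toReal + η / m := by
    intro i
    have hfinite : ({p i, q i, r i} : Set E3).Finite := by simp
    have hcomp : IsCompact (convexHull ℝ ({p i, q i, r i} : Set E3)) :=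
      hfinite.isCompact_convexHull ℝ
    have hune : u i ≠ 0 := by
      intro h0
      have := hu i
      rw [h0, norm_zero] at this
      exact zero_ne_one this
    exact exists_open_base (u i) hune _ hcomp.isClosed hcomp.isBounded
      (tri_subset_plane _ _ _ _ (hperp i).1 (hperp i).2.1 (hperp i).2.2) (η / m) (by positivity)
  choose O hO1 hO2 hO3 hO4 using hex
  refine ⟨fun i => O i ∩ {x | inner ℝ x (u i) = 0}, fun i => ⟨hO2 i, O i, hO1 i, rfl⟩, ?_, ?_⟩
  · intro x hx
    obtain ⟨i, y, hy, τ, rfl⟩ := Set.mem_iUnion.1 (hcov hx)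
    exact Set.mem_iUnion.2 ⟨i, y, hO3 i hy, τ, rfl⟩
  · calc ∑ i, (μHE[2] (O i ∩ {x | inner ℝ x (u i) = 0})).toReal
        ≤ ∑ i, ((μHE[2] (convexHull ℝ {p i, q i, r i})).toReal + η / m) :=
          Finset.sum_le_sum fun i _ => hO4 i
      _ = ∑ i, (μHE[2] (convexHull ℝ {p i, q i, r i})).toReal + η := by
          rw [Finset.sum_add_distrib, Finset.sum_const, Finset.card_univ, Fintype.card_fin,
            nsmul_eq_mul]
          congr 1
          field_simp

end Crest.Agent.S0327
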