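import Crest.Agent.S0325.ProjArea

/-!
# F4: similarity transfer from the standard regular tetrahedron to an arbitrary one
(helper1, ROW211 WP-F4).  All names are prefixed `sim_`.
-/

set_option autoImplicit false
open MeasureTheory
open scoped ENNReal Pointwise

namespace Crest.Agent.S0327

local notation "E3" => EuclideanSpace ℝ (Fin 3)

/-- The similarity `x ↦ z + c • U x` as an affine map. -/
noncomputable def sim_map (U : E3 ≃ₗᵢ[ℝ] E3) (z : E3) (c : ℝ) : E3 →ᵃ[ℝ] E3 :=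
  AffineMap.mk' (fun x => z + c • U x) (c • (U.toLinearEquiv : E3 →ₗ[ℝ] E3)) 0 (by
    intro x
    simp only [vsub_eq_sub, sub_zero, LinearMap.smul_apply, LinearEquiv.coe_coe,
      LinearIsometryEquiv.coe_toLinearEquiv, map_zero, smul_zero, add_zero, vadd_eq_add]
    abel)

lemma sim_map_apply (U : E3 ≃ₗᵢ[ℝ] E3) (z : E3) (c : ℝ) (x : E3) :
    sim_map U z c x = z + c • U x := rfl

/-- A similarity of ratio `c > 0` multiplies areas by `c²`. -/
lemma sim_measure_image (U : E3 ≃ₗᵢ[ℝ] E3) (z : E3) (c : ℝ) (hc : 0 < c) (S : Set E3) :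
    μHE[2] ((fun x => z + c • U x) '' S) = ENNReal.ofReal (c ^ 2) * μHE[2] S := by
  have h1 : (fun x => z + c • U x) '' S = (fun y => z + y) '' (c • (U '' S)) := by
    rw [← Set.image_smul, Set.image_image, Set.image_image]
  rw [h1, (isometry_add_left z).euclideanHausdorffMeasure_image,
    Measure.euclideanHausdorffMeasure_smul₀ 2 hc.ne', U.isometry.euclideanHausdorffMeasure_image]
  rw [ENNReal.smul_def, smul_eq_mul]
  congr 1
  rw [ENNReal.coe_pow, ENNReal.ofReal_pow hc.le]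
  congr 1
  rw [← ENNReal.ofReal_coe_nnreal, coe_nnnorm, Real.norm_of_nonneg hc.le]

/-- Image of a triangle under a similarity. -/
lemma sim_image_triangle (U : E3 ≃ₗᵢ[ℝ] E3) (z : E3) (c : ℝ) (p q r : E3) :
    (fun x => z + c • U x) '' convexHull ℝ {p, q, r}
      = convexHull ℝ {z + c • U p, z + c • U q, z + c • U r} := by
  have h := (sim_map U z c).image_convexHull {p, q, r}
  simp only [Set.image_insert_eq, Set.image_singleton, sim_map_apply] at h
  exact h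

lemma sim_polar {V : Type*} [NormedAddCommGroup V] [InnerProductSpace ℝ V] (a b : V) (ℓ : ℝ)
    (ha : inner ℝ a a = ℓ ^ 2) (hb : inner ℝ b b = ℓ ^ 2)
    (hab : inner ℝ (a - b) (a - b) = ℓ ^ 2) : inner ℝ a b = ℓ ^ 2 / 2 := by
  have h : inner ℝ (a - b) (a - b) = inner ℝ a a - 2 * inner ℝ a b + inner ℝ b b := by
    rw [inner_sub_left, inner_sub_right, inner_sub_right, real_inner_comm b a]
    ring
  linarith

/-- Inner products of the edge vectors of a regular tetrahedron. -/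
lemma sim_edge_inner (w : Fin 4 → E3) (ℓ : ℝ) (hw : ∀ i j, i ≠ j → dist (w i) (w j) = ℓ) :
    inner ℝ (w 1 - w 0) (w 1 - w 0) = ℓ ^ 2 ∧ inner ℝ (w 2 - w 0) (w 2 - w 0) = ℓ ^ 2 ∧
    inner ℝ (w 3 - w 0) (w 3 - w 0) = ℓ ^ 2 ∧ inner ℝ (w 1 - w 0) (w 2 - w 0) = ℓ ^ 2 / 2 ∧
    inner ℝ (w 1 - w 0) (w 3 - w 0) = ℓ ^ 2 / 2 ∧ inner ℝ (w 2 - w 0) (w 3 - w 0) = ℓ ^ 2 / 2 := by
  have hn : ∀ i j, i ≠ j → inner ℝ (w i - w j) (w i - w j) = ℓ ^ 2 := by
    intro i j hij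
    rw [real_inner_self_eq_norm_sq, ← dist_eq_norm, hw i j hij]
  have h10 := hn 1 0 (by decide)
  have h20 := hn 2 0 (by decide)
  have h30 := hn 3 0 (by decide)
  have h12 := hn 1 2 (by decide)
  have h13 := hn 1 3 (by decide)
  have h23 := hn 2 3 (by decide)
  have e12 : w 1 - w 2 = (w 1 - w 0) - (w 2 - w 0) := by abel
  have e13 : w 1 - w 3 = (w 1 - w 0) - (w 3 - w 0) := by abel
  have e23 : w 2 - w 3 = (w 2 - w 0) - (w 3 - w 0) := by abel
  rw [e12] at h12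
  rw [e13] at h13
  rw [e23] at h23
  exact ⟨h10, h20, h30, sim_polar _ _ ℓ h10 h20 h12, sim_polar _ _ ℓ h10 h30 h13,
    sim_polar _ _ ℓ h20 h30 h23⟩

lemma sim_orthonormal_aux {V : Type*} [NormedAddCommGroup V] [InnerProductSpace ℝ V]
    (a b c : V) (ℓ : ℝ) (hℓ : 0 < ℓ)
    (haa : inner ℝ a a = ℓ ^ 2) (hbb : inner ℝ b b = ℓ ^ 2) (hcc : inner ℝ c c = ℓ ^ 2)
    (hab : inner ℝ a b = ℓ ^ 2 / 2) (hac : inner ℝ a c = ℓ ^ 2 / 2)
    (hbc : inner ℝ b c = ℓ ^ 2 / 2) :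
    Orthonormal ℝ ![(1 / ℓ) • (-a), (1 / ℓ) • (b - c), (1 / (Real.sqrt 2 * ℓ)) • (b + c - a)] := by
  have hba := real_inner_comm a b
  have hca := real_inner_comm a c
  have hcb := real_inner_comm b c
  rw [hab] at hba
  rw [hac] at hca
  rw [hbc] at hcb
  have hs : Real.sqrt 2 ^ 2 = 2 := Real.sq_sqrt (by norm_num)
  have hs0 : 0 < Real.sqrt 2 := by positivity
  have hℓ0 : ℓ ≠ 0 := hℓ.ne'
  have hs0' : Real.sqrt 2 ≠ 0 := hs0.ne'
  rw [orthonormal_iff_ite]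
  intro i j
  fin_cases i <;> fin_cases j <;>
    simp only [Fin.zero_eta, Fin.mk_one, Fin.reduceFinMk, Matrix.cons_val_zero,
      Matrix.cons_val_one, Matrix.cons_val_two, Matrix.tail_cons, Matrix.head_cons,
      inner_smul_left, inner_smul_right, inner_sub_left, inner_sub_right, inner_add_left,
      inner_add_right, inner_neg_left, inner_neg_right, haa, hbb, hcc, hab, hac, hbc, hba, hca,
      hcb, conj_trivial]
  all_goals simp only [if_true, Fin.isValue, Fin.reduceEq, if_false]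
  all_goals field_simp
  all_goals try ring_nf
  all_goals try (rw [hs]; ring)

/-- The orthonormal frame attached to a regular tetrahedron. -/
noncomputable def sim_frame (w : Fin 4 → E3) (ℓ : ℝ) : Fin 3 → E3 :=
  ![(1 / ℓ) • (-(w 1 - w 0)), (1 / ℓ) • ((w 2 - w 0) - (w 3 - w 0)),
    (1 / (Real.sqrt 2 * ℓ)) • ((w 2 - w 0) + (w 3 - w 0) - (w 1 - w 0))]

lemma sim_frame_orthonormal (w : Fin 4 → E3) (ℓ : ℝ) (hℓ : 0 < ℓ)
    (hw : ∀ i j, i ≠ j → dist (w i) (w j) = ℓ) : Orthonormal ℝ (sim_frame w ℓ) := by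
  obtain ⟨haa, hbb, hcc, hab, hac, hbc⟩ := sim_edge_inner w ℓ hw
  exact sim_orthonormal_aux _ _ _ ℓ hℓ haa hbb hcc hab hac hbc

/-- **Every regular tetrahedron is a similar image of the standard one.** -/
theorem sim_exists (w : Fin 4 → E3) (ℓ : ℝ) (hℓ : 0 < ℓ)
    (hw : ∀ i j, i ≠ j → dist (w i) (w j) = ℓ) :
    ∃ (U : E3 ≃ₗᵢ[ℝ] E3) (z : E3), convexHull ℝ (Set.range w)
      = (fun x => z + (ℓ / 2) • U x) '' convexHull ℝ
          {!₂[1, 0, 0], !₂[-1, 0, 0], !₂[0, 1, Real.sqrt 2], !₂[0, -1, Real.sqrt 2]} := by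
  have hon := sim_frame_orthonormal w ℓ hℓ hw
  obtain ⟨b, hb⟩ := Orthonormal.exists_orthonormalBasis_extension_of_card_eq
    (𝕜 := ℝ) (E := E3) (ι := Fin 3) (by simp) (v := sim_frame w ℓ) (s := Set.univ)
    (by
      have : Orthonormal ℝ ((Set.univ : Set (Fin 3)).domRestrict (sim_frame w ℓ)) :=
        hon.comp _ Subtype.val_injective
      exact this)
  have hb' : ∀ i, b i = sim_frame w ℓ i := fun i => hb i (Set.mem_univ i)
  have hU : ∀ x : E3, b.repr.symm x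
      = x 0 • sim_frame w ℓ 0 + x 1 • sim_frame w ℓ 1 + x 2 • sim_frame w ℓ 2 := by
    intro x
    rw [← b.sum_repr_symm, Fin.sum_univ_three, hb', hb', hb']
  refine ⟨b.repr.symm, (1 / 2 : ℝ) • (w 0 + w 1), ?_⟩
  have himg := (sim_map b.repr.symm ((1 / 2 : ℝ) • (w 0 + w 1)) (ℓ / 2)).image_convexHull
    {!₂[1, 0, 0], !₂[-1, 0, 0], !₂[0, 1, Real.sqrt 2], !₂[0, -1, Real.sqrt 2]}
  have hfun : (fun x => (1 / 2 : ℝ) • (w 0 + w 1) + (ℓ / 2) • b.repr.symm x)
      = ⇑(sim_map b.repr.symm ((1 / 2 : ℝ) • (w 0 + w 1)) (ℓ / 2)) := rfl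
  rw [hfun, himg]
  congr 1
  have hℓ0 : ℓ ≠ 0 := hℓ.ne'
  have hs0 : Real.sqrt 2 ≠ 0 := by positivity
  have hA : (1 / 2 : ℝ) • (w 0 + w 1) + (ℓ / 2) • ((1 : ℝ) • sim_frame w ℓ 0
      + (0 : ℝ) • sim_frame w ℓ 1 + (0 : ℝ) • sim_frame w ℓ 2) = w 0 := by
    simp only [sim_frame, Matrix.cons_val_zero, Matrix.cons_val_one, Matrix.cons_val_two,
      Matrix.tail_cons, Matrix.head_cons]
    match_scalars <;> field_simp <;> ring
  have hB : (1 / 2 : ℝ) • (w 0 + w 1) + (ℓ / 2) • ((-1 : ℝ) • sim_frame w ℓ 0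
      + (0 : ℝ) • sim_frame w ℓ 1 + (0 : ℝ) • sim_frame w ℓ 2) = w 1 := by
    simp only [sim_frame, Matrix.cons_val_zero, Matrix.cons_val_one, Matrix.cons_val_two,
      Matrix.tail_cons, Matrix.head_cons]
    match_scalars <;> field_simp <;> ring
  have hC : (1 / 2 : ℝ) • (w 0 + w 1) + (ℓ / 2) • ((0 : ℝ) • sim_frame w ℓ 0
      + (1 : ℝ) • sim_frame w ℓ 1 + (Real.sqrt 2) • sim_frame w ℓ 2) = w 2 := by
    simp only [sim_frame, Matrix.cons_val_zero, Matrix.cons_val_one, Matrix.cons_val_two,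
      Matrix.tail_cons, Matrix.head_cons]
    match_scalars <;> field_simp <;> ring
  have hD : (1 / 2 : ℝ) • (w 0 + w 1) + (ℓ / 2) • ((0 : ℝ) • sim_frame w ℓ 0
      + (-1 : ℝ) • sim_frame w ℓ 1 + (Real.sqrt 2) • sim_frame w ℓ 2) = w 3 := by
    simp only [sim_frame, Matrix.cons_val_zero, Matrix.cons_val_one, Matrix.cons_val_two,
      Matrix.tail_cons, Matrix.head_cons]
    match_scalars <;> field_simp <;> ring
  have h0 : sim_map b.repr.symm ((1 / 2 : ℝ) • (w 0 + w 1)) (ℓ / 2) !₂[1, 0, 0] = w 0 := by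
    rw [sim_map_apply, hU]
    exact hA
  have h1 : sim_map b.repr.symm ((1 / 2 : ℝ) • (w 0 + w 1)) (ℓ / 2) !₂[-1, 0, 0] = w 1 := by
    rw [sim_map_apply, hU]
    exact hB
  have h2 : sim_map b.repr.symm ((1 / 2 : ℝ) • (w 0 + w 1)) (ℓ / 2) !₂[0, 1, Real.sqrt 2]
      = w 2 := by
    rw [sim_map_apply, hU]
    exact hC
  have h3 : sim_map b.repr.symm ((1 / 2 : ℝ) • (w 0 + w 1)) (ℓ / 2) !₂[0, -1, Real.sqrt 2]
      = w 3 := by
    rw [sim_map_apply, hU]
    exact hD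
  simp only [Set.image_insert_eq, Set.image_singleton, h0, h1, h2, h3]
  ext x
  simp only [Set.mem_range, Set.mem_insert_iff, Set.mem_singleton_iff]
  constructor
  · rintro ⟨i, rfl⟩
    fin_cases i <;> simp
  · rintro (rfl | rfl | rfl | rfl)
    · exact ⟨0, rfl⟩
    · exact ⟨1, rfl⟩
    · exact ⟨2, rfl⟩
    · exact ⟨3, rfl⟩

/-- Projection of a similar image = similar image of a projection (along the pulled-back
direction). -/
lemma sim_proj_image (U : E3 ≃ₗᵢ[ℝ] E3) (z : E3) (c : ℝ) (S : Set E3) (v : E3) :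
    (fun y => y - inner ℝ y v • v) '' ((fun x => z + c • U x) '' S)
      = (fun y => (z - inner ℝ z v • v) + c • U y) ''
          ((fun y => y - inner ℝ y (U.symm v) • U.symm v) '' S) := by
  rw [Set.image_image, Set.image_image]
  apply Set.image_congr
  intro x _
  have h1 : inner ℝ (U x) v = inner ℝ x (U.symm v) := U.inner_map_eq_flip x v
  simp only [inner_add_left, inner_smul_left, h1, map_sub, map_smul,
    LinearIsometryEquiv.apply_symm_apply, conj_trivial]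
  module

/-- **Every projection of a regular tetrahedron of edge `ℓ` has area at least `(ℓ/2)²·√2`.** -/
theorem sim_proj_ge (w : Fin 4 → E3) (ℓ : ℝ) (hℓ : 0 < ℓ)
    (hw : ∀ i j, i ≠ j → dist (w i) (w j) = ℓ) (v : E3) (hv : ‖v‖ = 1) :
    ENNReal.ofReal ((ℓ / 2) ^ 2 * Real.sqrt 2)
      ≤ μHE[2] ((fun y => y - inner ℝ y v • v) '' convexHull ℝ (Set.range w)) := by
  obtain ⟨U, z, hW⟩ := sim_exists w ℓ hℓ hw
  rw [hW, sim_proj_image, sim_measure_image _ _ _ (half_pos hℓ),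
    ENNReal.ofReal_mul (sq_nonneg _)]
  have h := Crest.Agent.S0325.proj_area_ge (U.symm v) (by rw [U.symm.norm_map]; exact hv)
  exact mul_le_mul' le_rfl h

/-- **Transfer of a cover by triangular cylinders** from the standard tetrahedron to an
arbitrary regular tetrahedron of edge `ℓ`; all base areas are multiplied by `(ℓ/2)²`. -/
theorem sim_cover (w : Fin 4 → E3) (ℓ : ℝ) (hℓ : 0 < ℓ)
    (hw : ∀ i j, i ≠ j → dist (w i) (w j) = ℓ) (m : ℕ) (u p q r : Fin m → E3)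
    (hu : ∀ i, ‖u i‖ = 1)
    (hperp : ∀ i, inner ℝ (p i) (u i) = 0 ∧ inner ℝ (q i) (u i) = 0 ∧ inner ℝ (r i) (u i) = 0)
    (hcov : convexHull ℝ {!₂[1, 0, 0], !₂[-1, 0, 0], !₂[0, 1, Real.sqrt 2],
        !₂[0, -1, Real.sqrt 2]} ⊆
      ⋃ i, {x : E3 | ∃ y ∈ convexHull ℝ {p i, q i, r i}, ∃ τ : ℝ, x = y + τ • u i}) :
    ∃ (u' p' q' r' : Fin m → E3), (∀ i, ‖u' i‖ = 1) ∧
      (∀ i, inner ℝ (p' i) (u' i) = 0 ∧ inner ℝ (q' i) (u' i) = 0 ∧
        inner ℝ (r' i) (u' i) = 0) ∧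
      convexHull ℝ (Set.range w) ⊆
        ⋃ i, {x : E3 | ∃ y ∈ convexHull ℝ {p' i, q' i, r' i}, ∃ τ : ℝ, x = y + τ • u' i} ∧
      ∀ i, μHE[2] (convexHull ℝ {p' i, q' i, r' i})
        = ENNReal.ofReal ((ℓ / 2) ^ 2) * μHE[2] (convexHull ℝ {p i, q i, r i}) := by
  obtain ⟨U, z, hW⟩ := sim_exists w ℓ hℓ hw
  have hc : 0 < ℓ / 2 := half_pos hℓ
  have hz : ∀ i, inner ℝ (z - inner ℝ z (U (u i)) • U (u i)) (U (u i)) = 0 := by
    intro i
    rw [inner_sub_left, inner_smul_left, real_inner_self_eq_norm_sq, U.norm_map, hu i]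
    simp
  have hperp' : ∀ i (x : E3), inner ℝ x (u i) = 0 →
      inner ℝ (z - inner ℝ z (U (u i)) • U (u i) + (ℓ / 2) • U x) (U (u i)) = 0 := by
    intro i x hx
    rw [inner_add_left, hz i, inner_smul_left, U.inner_map_map, hx]
    simp
  refine ⟨fun i => U (u i), fun i => z - inner ℝ z (U (u i)) • U (u i) + (ℓ / 2) • U (p i),
    fun i => z - inner ℝ z (U (u i)) • U (u i) + (ℓ / 2) • U (q i),
    fun i => z - inner ℝ z (U (u i)) • U (u i) + (ℓ / 2) • U (r i), ?_, ?_, ?_, ?_⟩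
  · intro i
    rw [U.norm_map]
    exact hu i
  · intro i
    exact ⟨hperp' i _ (hperp i).1, hperp' i _ (hperp i).2.1, hperp' i _ (hperp i).2.2⟩
  · rw [hW]
    rintro _ ⟨x0, hx0, rfl⟩
    have hx0' := hcov hx0
    rw [Set.mem_iUnion] at hx0'
    obtain ⟨i, y, hy, τ, rfl⟩ := hx0'
    rw [Set.mem_iUnion]
    refine ⟨i, z - inner ℝ z (U (u i)) • U (u i) + (ℓ / 2) • U y, ?_,
      inner ℝ z (U (u i)) + ℓ / 2 * τ, ?_⟩
    · rw [← sim_image_triangle]
      exact ⟨y, hy, rfl⟩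
    · simp only [map_add, map_smul]
      module
  · intro i
    rw [← sim_image_triangle, sim_measure_image _ _ _ hc]

/-- The projection of any tetrahedron (regular or not) has finite area. -/
theorem sim_proj_lt_top (w : Fin 4 → E3) (v : E3) (hv : ‖v‖ = 1) :
    μHE[2] ((fun y => y - inner ℝ y v • v) '' convexHull ℝ (Set.range w)) < ⊤ := by
  have hr : Set.range w = {w 0, w 1, w 2, w 3} := by
    ext x
    simp only [Set.mem_range, Set.mem_insert_iff, Set.mem_singleton_iff]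
    constructor
    · rintro ⟨i, rfl⟩
      fin_cases i <;> simp
    · rintro (rfl | rfl | rfl | rfl)
      · exact ⟨0, rfl⟩
      · exact ⟨1, rfl⟩
      · exact ⟨2, rfl⟩
      · exact ⟨3, rfl⟩
  obtain ⟨ι, a, b, c, d, -, -, -, -, hμ⟩ :=
    Crest.Agent.S0325.proj_hull_pullback v hv (w 0) (w 1) (w 2) (w 3)
  rw [hr, hμ]
  exact (Set.Finite.isCompact_convexHull ℝ (by simp)).measure_lt_top

/-- Real-number form of `sim_proj_ge`. -/
theorem sim_proj_ge_toReal (w : Fin 4 → E3) (ℓ : ℝ) (hℓ : 0 < ℓ)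
    (hw : ∀ i j, i ≠ j → dist (w i) (w j) = ℓ) (v : E3) (hv : ‖v‖ = 1) :
    (ℓ / 2) ^ 2 * Real.sqrt 2
      ≤ (μHE[2] ((fun y => y - inner ℝ y v • v) '' convexHull ℝ (Set.range w))).toReal := by
  have h := sim_proj_ge w ℓ hℓ hw v hv
  have hfin := sim_proj_lt_top w v hv
  have h2 := ENNReal.toReal_mono hfin.ne h
  rwa [ENNReal.toReal_ofReal (by positivity)] at h2

end Crest.Agent.S0327
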