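import Crest.Agent.S0327.Open

/-!
Row 211 / S0327: every regular tetrahedron is the image of the standard one under a similarity.
-/

set_option autoImplicit false
open MeasureTheory
open scoped ENNReal

namespace Crest.Agent.S0327

/-- Inner products of the frame vectors attached to a regular tetrahedron. -/
lemma tetra_frame_inner (w : Fin 4 → E3) (ℓ : ℝ)
    (hw : ∀ i j, i ≠ j → dist (w i) (w j) = ℓ) :
    inner ℝ (w 0 - w 1) (w 0 - w 1) = ℓ ^ 2 ∧
    inner ℝ (w 2 - w 3) (w 2 - w 3) = ℓ ^ 2 ∧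
    inner ℝ (w 2 + w 3 - w 0 - w 1) (w 2 + w 3 - w 0 - w 1) = 2 * ℓ ^ 2 ∧
    inner ℝ (w 0 - w 1) (w 2 - w 3) = 0 ∧
    inner ℝ (w 0 - w 1) (w 2 + w 3 - w 0 - w 1) = 0 ∧
    inner ℝ (w 2 - w 3) (w 2 + w 3 - w 0 - w 1) = 0 := by
  have e : ∀ i j, i ≠ j → ‖w i‖ ^ 2 - 2 * inner ℝ (w i) (w j) + ‖w j‖ ^ 2 = ℓ ^ 2 := by
    intro i j hij
    rw [← norm_sub_sq_real, ← dist_eq_norm, hw i j hij]
  have e01 := e 0 1 (by decide)
  have e02 := e 0 2 (by decide)
  have e03 := e 0 3 (by decide)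
  have e12 := e 1 2 (by decide)
  have e13 := e 1 3 (by decide)
  have e23 := e 2 3 (by decide)
  have c10 := real_inner_comm (w 0) (w 1)
  have c20 := real_inner_comm (w 0) (w 2)
  have c30 := real_inner_comm (w 0) (w 3)
  have c21 := real_inner_comm (w 1) (w 2)
  have c31 := real_inner_comm (w 1) (w 3)
  have c32 := real_inner_comm (w 2) (w 3)
  refine ⟨?_, ?_, ?_, ?_, ?_, ?_⟩ <;>
  · simp only [inner_sub_left, inner_sub_right, inner_add_left, inner_add_right,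
      real_inner_self_eq_norm_sq, c10, c20, c30, c21, c31, c32]
    linarith

/-- The orthonormal frame attached to a regular tetrahedron. -/
noncomputable def tetraFrame (w : Fin 4 → E3) (ℓ : ℝ) : Fin 3 → E3 :=
  ![(1 / ℓ) • (w 0 - w 1), (1 / ℓ) • (w 2 - w 3),
    (1 / (Real.sqrt 2 * ℓ)) • (w 2 + w 3 - w 0 - w 1)]

lemma tetraFrame_orthonormal (w : Fin 4 → E3) (ℓ : ℝ) (hℓ : 0 < ℓ)
    (hw : ∀ i j, i ≠ j → dist (w i) (w j) = ℓ) : Orthonormal ℝ (tetraFrame w ℓ) := by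
  obtain ⟨h00, h11, h22, h01, h02, h12⟩ := tetra_frame_inner w ℓ hw
  have hs : Real.sqrt 2 * Real.sqrt 2 = 2 := Real.mul_self_sqrt (by norm_num)
  have hs0 : 0 < Real.sqrt 2 := Real.sqrt_pos.mpr (by norm_num)
  have h10 := (real_inner_comm (w 0 - w 1) (w 2 - w 3)).trans h01
  have h20 := (real_inner_comm (w 0 - w 1) (w 2 + w 3 - w 0 - w 1)).trans h02
  have h21 := (real_inner_comm (w 2 - w 3) (w 2 + w 3 - w 0 - w 1)).trans h12
  rw [orthonormal_iff_ite]
  intro i j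
  have n00 : ‖w 0 - w 1‖ ^ 2 = ℓ ^ 2 := by rw [← real_inner_self_eq_norm_sq]; exact h00
  have n11 : ‖w 2 - w 3‖ ^ 2 = ℓ ^ 2 := by rw [← real_inner_self_eq_norm_sq]; exact h11
  have n22 : ‖w 2 + w 3 - w 0 - w 1‖ ^ 2 = 2 * ℓ ^ 2 := by
    rw [← real_inner_self_eq_norm_sq]; exact h22
  fin_cases i <;> fin_cases j <;>
    simp [tetraFrame, inner_smul_left, inner_smul_right, h01, h02, h12, h10, h20, h21]
  · left
    have m : ‖w 0 - w 1‖ = ℓ := by rw [← dist_eq_norm]; exact hw 0 1 (by decide)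
    rw [norm_smul, m, Real.norm_eq_abs, abs_of_pos (inv_pos.mpr hℓ)]
    field_simp
  · left
    have m : ‖w 2 - w 3‖ = ℓ := by rw [← dist_eq_norm]; exact hw 2 3 (by decide)
    rw [norm_smul, m, Real.norm_eq_abs, abs_of_pos (inv_pos.mpr hℓ)]
    field_simp
  · left
    have m : ‖w 2 + w 3 - w 0 - w 1‖ = Real.sqrt 2 * ℓ := by
      have h := n22
      have hpos : 0 ≤ Real.sqrt 2 * ℓ := by positivity
      have h2 : ‖w 2 + w 3 - w 0 - w 1‖ ^ 2 = (Real.sqrt 2 * ℓ) ^ 2 := by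
        rw [h, mul_pow, Real.sq_sqrt (by norm_num)]
      exact (sq_eq_sq₀ (norm_nonneg _) hpos).mp h2
    rw [norm_smul, m, Real.norm_eq_abs, abs_of_pos (by positivity)]
    field_simp

lemma range_fin_four (w : Fin 4 → E3) : Set.range w = {w 0, w 1, w 2, w 3} := by
  ext x
  constructor
  · rintro ⟨i, rfl⟩
    fin_cases i <;> simp
  · rintro (rfl | rfl | rfl | rfl) <;> exact ⟨_, rfl⟩

/-- Every regular tetrahedron is the image of the standard one under a similarity of ratio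
`ℓ / 2`. -/
theorem exists_similarity (w : Fin 4 → E3) (ℓ : ℝ) (hℓ : 0 < ℓ)
    (hw : ∀ i j, i ≠ j → dist (w i) (w j) = ℓ) :
    ∃ (Q : E3 ≃ₗᵢ[ℝ] E3) (m : E3),
      convexHull ℝ (Set.range w) = (fun z : E3 => m + (ℓ / 2) • Q z) ''
        convexHull ℝ {!₂[1, 0, 0], !₂[-1, 0, 0], !₂[0, 1, Real.sqrt 2], !₂[0, -1, Real.sqrt 2]} := by
  have hon := tetraFrame_orthonormal w ℓ hℓ hw
  have hsp : ⊤ ≤ Submodule.span ℝ (Set.range (tetraFrame w ℓ)) := by
    rw [hon.linearIndependent.span_eq_top_of_card_eq_finrank' (by simp)]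
  let B : OrthonormalBasis (Fin 3) ℝ E3 := OrthonormalBasis.mk hon hsp
  let Q : E3 ≃ₗᵢ[ℝ] E3 := B.repr.symm
  have hQ : ∀ x : E3, Q x =
      x 0 • tetraFrame w ℓ 0 + x 1 • tetraFrame w ℓ 1 + x 2 • tetraFrame w ℓ 2 := by
    intro x
    have h := B.sum_repr_symm x
    rw [Fin.sum_univ_three] at h
    simp only [B, OrthonormalBasis.coe_mk] at h
    exact h.symm
  have hs0 : 0 < Real.sqrt 2 := Real.sqrt_pos.mpr (by norm_num)
  have hf0 : (ℓ / 2) • tetraFrame w ℓ 0 = (1 / 2 : ℝ) • (w 0 - w 1) := by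
    simp only [tetraFrame, Matrix.cons_val_zero, smul_smul]
    congr 1
    field_simp
  have hf1 : (ℓ / 2) • tetraFrame w ℓ 1 = (1 / 2 : ℝ) • (w 2 - w 3) := by
    simp only [tetraFrame, Matrix.cons_val_one, Matrix.cons_val_zero, smul_smul]
    congr 1
    field_simp
  have hf2 : (ℓ / 2) • (Real.sqrt 2 • tetraFrame w ℓ 2) =
      (1 / 2 : ℝ) • (w 2 + w 3 - w 0 - w 1) := by
    simp only [tetraFrame, Matrix.cons_val_two, Matrix.tail_cons, Matrix.head_cons, smul_smul]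
    congr 1
    field_simp
  refine ⟨Q, (1 / 2 : ℝ) • (w 0 + w 1), ?_⟩
  let Ψ : E3 →ᵃ[ℝ] E3 := (AffineEquiv.constVAdd ℝ E3 ((1 / 2 : ℝ) • (w 0 + w 1))).toAffineMap.comp
    ((ℓ / 2) • Q.toLinearEquiv.toLinearMap).toAffineMap
  have hΨ : ∀ z : E3, Ψ z = (1 / 2 : ℝ) • (w 0 + w 1) + (ℓ / 2) • Q z := by
    intro z
    simp [Ψ, add_assoc]
  have himg : (fun z : E3 => (1 / 2 : ℝ) • (w 0 + w 1) + (ℓ / 2) • Q z) = Ψ := by
    funext z
    exact (hΨ z).symm
  rw [himg, AffineMap.image_convexHull, range_fin_four]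
  congr 1
  simp only [Set.image_insert_eq, Set.image_singleton]
  have v0 : Ψ !₂[1, 0, 0] = w 0 := by
    rw [hΨ, hQ]
    simp only [Matrix.cons_val_zero, Matrix.cons_val_one, Matrix.cons_val_two,
      Matrix.tail_cons, Matrix.head_cons, one_smul, zero_smul, add_zero]
    rw [hf0]
    module
  have v1 : Ψ !₂[-1, 0, 0] = w 1 := by
    rw [hΨ, hQ]
    simp only [Matrix.cons_val_zero, Matrix.cons_val_one, Matrix.cons_val_two,
      Matrix.tail_cons, Matrix.head_cons, neg_smul, one_smul, zero_smul, add_zero, smul_neg]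
    rw [hf0]
    module
  have v2 : Ψ !₂[0, 1, Real.sqrt 2] = w 2 := by
    rw [hΨ, hQ]
    simp only [Matrix.cons_val_zero, Matrix.cons_val_one, Matrix.cons_val_two,
      Matrix.tail_cons, Matrix.head_cons, one_smul, zero_smul, zero_add, smul_add]
    rw [hf1, hf2]
    module
  have v3 : Ψ !₂[0, -1, Real.sqrt 2] = w 3 := by
    rw [hΨ, hQ]
    simp only [Matrix.cons_val_zero, Matrix.cons_val_one, Matrix.cons_val_two,
      Matrix.tail_cons, Matrix.head_cons, neg_smul, one_smul, zero_smul, zero_add, smul_add,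
      smul_neg]
    rw [hf1, hf2]
    module
  rw [v0, v1, v2, v3]

end Crest.Agent.S0327
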